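import Crest.Agent.R130.Defs

/-!
# Row 130, piece ABSA: the abstract optimal transport part
-/

set_option autoImplicit false
open MeasureTheory Set
open scoped ENNReal
open Crest.AnalysisR.OT

namespace Crest.Agent.R130

namespace Conf

variable {X : Type*} [MeasurableSpace X] {C : X × X × X → ℝ≥0∞} (F : Conf C)

/-- piece COUP: `Measure.map_add`, `Measure.map_map`, and `add` commutativity. -/
theorem isCoupling_pi0 (ν : Measure X) : IsCoupling₃ (F.mu ν) (F.pi0 ν) := by sorry

theorem lintegral_v_lt_top (ν : Measure X) [IsFiniteMeasure ν] :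
    ∫⁻ x, F.v x ∂(F.mu ν) < ⊤ := by sorry

/-- piece COST: every branch contributes `3 ∫ (v a + v (Y i a) + v (Z i a)) dν` (`hcon`, symmetries). -/
theorem cost_pi0 (ν : Measure X) (hν : ν F.KAᶜ = 0) :
    ∫⁻ p, C p ∂(F.pi0 ν) = 3 * ∫⁻ x, F.v x ∂(F.mu ν) := by sorry

/-- `mu` is concentrated on `K` -/
theorem mu_K (ν : Measure X) (hν : ν F.KAᶜ = 0) : F.mu ν F.Kᶜ = 0 := by sorry

end Conf

end Crest.Agent.R130
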