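import Crest.Agent.R130.AbsA

/-!
# Row 130, piece ABSB: the abstract optimal transport part
-/

set_option autoImplicit false
open MeasureTheory Set
open scoped ENNReal
open Crest.AnalysisR.OT

namespace Crest.Agent.R130

namespace Conf

variable {X : Type*} [MeasurableSpace X] {C : X × X × X → ℝ≥0∞} (F : Conf C)

/-- piece LOW -/
theorem low (hO : F.Opt) (ν : Measure X) (hν : ν F.KAᶜ = 0) (π : Measure (X × X × X))
    (hπ : IsCoupling₃ (F.mu ν) π) : 3 * ∫⁻ x, F.v x ∂(F.mu ν) ≤ ∫⁻ p, C p ∂π := by sorry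

/-- piece STR1: an optimal Monge plan is a.e. a contact triple -/
theorem contact_ae (hO : F.Opt) (ν : Measure X) [IsFiniteMeasure ν] (hν : ν F.KAᶜ = 0)
    (T₂ T₃ : X → X) (h₂ : Measurable T₂) (h₃ : Measurable T₃)
    (m₂ : (F.mu ν).map T₂ = F.mu ν) (m₃ : (F.mu ν).map T₃ = F.mu ν)
    (hle : ∫⁻ x, C (x, T₂ x, T₃ x) ∂(F.mu ν) ≤ 3 * ∫⁻ x, F.v x ∂(F.mu ν)) :
    ∀ᵐ x ∂(F.mu ν), F.Contact x (T₂ x) (T₃ x) := by sorry

end Conf

end Crest.Agent.R130
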