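import Crest.Agent.R130.AbsA

/-!
# Row 130, piece ABSC: the abstract optimal transport part
-/

set_option autoImplicit false
open MeasureTheory Set
open scoped ENNReal
open Crest.AnalysisR.OT

namespace Crest.Agent.R130

namespace Conf

variable {X : Type*} [MeasurableSpace X] {C : X × X × X → ℝ≥0∞} (F : Conf C)

/-- the set `D S` of the counting argument -/
def DSet (S : Set X) : Set X := F.Y true '' S ∪ F.Z true '' S

theorem measurableSet_DSet {S : Set X} (hS : MeasurableSet S) (hK : S ⊆ F.KA) :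
    MeasurableSet (F.DSet S) :=
  (F.imY true S hS hK).union (F.imZ true S hS hK)

theorem Yt_mem_DSet {S : Set X} (hK : S ⊆ F.KA) {a : X} (ha : a ∈ F.KA) :
    F.Y true a ∈ F.DSet S ↔ a ∈ S := by
  constructor
  · rintro (⟨b, hb, hab⟩ | ⟨b, hb, hab⟩)
    · have := F.injY true (hK hb) ha hab
      rwa [← this]
    · exact absurd hab.symm (F.dYZ true true a ha b (hK hb))
  · intro h
    exact Or.inl ⟨a, h, rfl⟩

theorem Zt_mem_DSet {S : Set X} (hK : S ⊆ F.KA) {a : X} (ha : a ∈ F.KA) :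
    F.Z true a ∈ F.DSet S ↔ a ∈ S := by
  constructor
  · rintro (⟨b, hb, hab⟩ | ⟨b, hb, hab⟩)
    · exact absurd hab (F.dYZ true true b (hK hb) a ha)
    · have := F.injZ true (hK hb) ha hab
      rwa [← this]
  · intro h
    exact Or.inr ⟨a, h, rfl⟩

theorem Yf_not_mem_DSet {S : Set X} (hK : S ⊆ F.KA) {a : X} (ha : a ∈ F.KA) :
    F.Y false a ∉ F.DSet S := by
  rintro (⟨b, hb, hab⟩ | ⟨b, hb, hab⟩)
  · exact F.dYY b (hK hb) a ha hab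
  · exact F.dYZ false true a ha b (hK hb) hab.symm

theorem Zf_not_mem_DSet {S : Set X} (hK : S ⊆ F.KA) {a : X} (ha : a ∈ F.KA) :
    F.Z false a ∉ F.DSet S := by
  rintro (⟨b, hb, hab⟩ | ⟨b, hb, hab⟩)
  · exact F.dYZ true false b (hK hb) a ha hab
  · exact F.dZZ b (hK hb) a ha hab

theorem not_mem_DSet {S : Set X} (hK : S ⊆ F.KA) {a : X} (ha : a ∈ F.KA) :
    a ∉ F.DSet S := by
  rintro (⟨b, hb, hab⟩ | ⟨b, hb, hab⟩)
  · exact F.dAY true b (hK hb) a ha hab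
  · exact F.dAZ true b (hK hb) a ha hab

theorem mu_apply (ν : Measure X) {S : Set X} (hS : MeasurableSet S) :
    F.mu ν S = ν S + ν S + ((ν (F.Y true ⁻¹' S) + ν (F.Z true ⁻¹' S)) +
      (ν (F.Y false ⁻¹' S) + ν (F.Z false ⁻¹' S))) := by
  simp only [mu, Measure.coe_add, Pi.add_apply, Measure.map_apply (F.mY _) hS,
    Measure.map_apply (F.mZ _) hS]

theorem nu_congr (ν : Measure X) (hν : ν F.KAᶜ = 0) {A B : Set X}
    (h : ∀ a ∈ F.KA, a ∈ A ↔ a ∈ B) : ν A = ν B := by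
  have hae : ∀ᵐ a ∂ν, a ∈ F.KA := by
    rw [ae_iff]
    exact hν
  refine measure_congr ?_
  rw [Filter.eventuallyEq_set]
  exact hae.mono fun a ha => h a ha

theorem nu_zero (ν : Measure X) (hν : ν F.KAᶜ = 0) {A : Set X}
    (h : ∀ a ∈ F.KA, a ∉ A) : ν A = 0 := by
  rw [F.nu_congr ν hν (B := ∅) (fun a ha => ⟨fun h' => absurd h' (h a ha), fun h' => h'.elim⟩)]
  exact measure_empty

theorem mu_of_subset_KA (ν : Measure X) (hν : ν F.KAᶜ = 0) {S : Set X} (hS : MeasurableSet S)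
    (hK : S ⊆ F.KA) : F.mu ν S = 2 * ν S := by
  rw [F.mu_apply ν hS]
  have h1 : ∀ i, ν (F.Y i ⁻¹' S) = 0 := fun i =>
    F.nu_zero ν hν fun a ha h => F.dAY i a ha _ (hK h) rfl
  have h2 : ∀ i, ν (F.Z i ⁻¹' S) = 0 := fun i =>
    F.nu_zero ν hν fun a ha h => F.dAZ i a ha _ (hK h) rfl
  rw [h1, h1, h2, h2]
  ring

theorem mu_DSet (ν : Measure X) (hν : ν F.KAᶜ = 0) {S : Set X} (hS : MeasurableSet S)
    (hK : S ⊆ F.KA) : F.mu ν (F.DSet S) = 2 * ν S := by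
  rw [F.mu_apply ν (F.measurableSet_DSet hS hK)]
  have h0 : ν (F.DSet S) = 0 := F.nu_zero ν hν fun a ha => F.not_mem_DSet hK ha
  have h1 : ν (F.Y true ⁻¹' F.DSet S) = ν S := F.nu_congr ν hν fun a ha => F.Yt_mem_DSet hK ha
  have h2 : ν (F.Z true ⁻¹' F.DSet S) = ν S := F.nu_congr ν hν fun a ha => F.Zt_mem_DSet hK ha
  have h3 : ν (F.Y false ⁻¹' F.DSet S) = 0 := F.nu_zero ν hν fun a ha => F.Yf_not_mem_DSet hK ha
  have h4 : ν (F.Z false ⁻¹' F.DSet S) = 0 := F.nu_zero ν hν fun a ha => F.Zf_not_mem_DSet hK ha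
  rw [h0, h1, h2, h3, h4]
  ring

theorem count_pointwise {S : Set X} (hK : S ⊆ F.KA) {x y z : X} (T₂ : X → X) (hy : y = T₂ x)
    (hc : F.Contact x y z) :
    (F.DSet S).indicator (fun _ => (1 : ℝ≥0∞)) x + (F.DSet S).indicator (fun _ => (1 : ℝ≥0∞)) y +
      (F.DSet S).indicator (fun _ => (1 : ℝ≥0∞)) z =
    2 * (F.DSet S ∪ (S ∩ (F.KA ∩ T₂ ⁻¹' (F.DSet F.KA)))).indicator (fun _ => (1 : ℝ≥0∞)) x := by
  classical
  obtain ⟨i, a, ha, h⟩ := hc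
  have hA : a ∉ F.DSet S := F.not_mem_DSet hK ha
  have hYS : ∀ i, F.Y i a ∉ S := fun i h => F.dAY i a ha _ (hK h) rfl
  have hZS : ∀ i, F.Z i a ∉ S := fun i h => F.dAZ i a ha _ (hK h) rfl
  have hYD := F.Yt_mem_DSet hK ha
  have hZD := F.Zt_mem_DSet hK ha
  have hYf := F.Yf_not_mem_DSet hK ha
  have hZf := F.Zf_not_mem_DSet hK ha
  have hYDK := (F.Yt_mem_DSet (le_refl F.KA) ha).2 ha
  have hZDK := (F.Zt_mem_DSet (le_refl F.KA) ha).2 ha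
  have hYfK := F.Yf_not_mem_DSet (le_refl F.KA) ha
  have hZfK := F.Zf_not_mem_DSet (le_refl F.KA) ha
  have h11 : (1 : ℝ≥0∞) + 1 = 2 := one_add_one_eq_two
  by_cases haS : a ∈ S
  · cases i
    · rcases h with ⟨h1, h2, h3⟩ | ⟨h1, h2, h3⟩ | ⟨h1, h2, h3⟩ | ⟨h1, h2, h3⟩ |
        ⟨h1, h2, h3⟩ | ⟨h1, h2, h3⟩ <;> subst h1 <;> subst h3 <;>
      simp [Set.indicator, hA, hYS, hZS, hYf, hZf, hYfK, hZfK, h2, ← hy]
    · rcases h with ⟨h1, h2, h3⟩ | ⟨h1, h2, h3⟩ | ⟨h1, h2, h3⟩ | ⟨h1, h2, h3⟩ |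
        ⟨h1, h2, h3⟩ | ⟨h1, h2, h3⟩ <;> subst h1 <;> subst h3 <;>
      simp [Set.indicator, hA, hYS, hZS, hYD, hZD, hYDK, hZDK, ha, haS, h2, ← hy, h11]
  · cases i
    · rcases h with ⟨h1, h2, h3⟩ | ⟨h1, h2, h3⟩ | ⟨h1, h2, h3⟩ | ⟨h1, h2, h3⟩ |
        ⟨h1, h2, h3⟩ | ⟨h1, h2, h3⟩ <;> subst h1 <;> subst h3 <;>
      simp [Set.indicator, hA, hYS, hZS, hYf, hZf, hYfK, hZfK, h2, ← hy]
    · rcases h with ⟨h1, h2, h3⟩ | ⟨h1, h2, h3⟩ | ⟨h1, h2, h3⟩ | ⟨h1, h2, h3⟩ |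
        ⟨h1, h2, h3⟩ | ⟨h1, h2, h3⟩ <;> subst h1 <;> subst h3 <;>
      simp [Set.indicator, hA, hYS, hZS, hYD, hZD, hYDK, hZDK, ha, haS, h2, ← hy, h11]

theorem count (ν : Measure X) [IsFiniteMeasure ν] (hν : ν F.KAᶜ = 0)
    (T₂ T₃ : X → X) (h₂ : Measurable T₂) (h₃ : Measurable T₃)
    (m₂ : (F.mu ν).map T₂ = F.mu ν) (m₃ : (F.mu ν).map T₃ = F.mu ν)
    (hc : ∀ᵐ x ∂(F.mu ν), F.Contact x (T₂ x) (T₃ x))
    {S : Set X} (hS : MeasurableSet S) (hK : S ⊆ F.KA) :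
    ν S = 2 * ν (S ∩ (F.KA ∩ T₂ ⁻¹' (F.DSet F.KA))) := by
  have hDS := F.measurableSet_DSet hS hK
  have hE : MeasurableSet (F.KA ∩ T₂ ⁻¹' (F.DSet F.KA)) :=
    F.mKA.inter (h₂ (F.measurableSet_DSet F.mKA (le_refl _)))
  have hSE := hS.inter hE
  have hSEK : S ∩ (F.KA ∩ T₂ ⁻¹' (F.DSet F.KA)) ⊆ F.KA := fun x hx => hK hx.1
  have key : ∫⁻ x, ((F.DSet S).indicator (fun _ => (1 : ℝ≥0∞)) x +
      (F.DSet S).indicator (fun _ => (1 : ℝ≥0∞)) (T₂ x) +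
      (F.DSet S).indicator (fun _ => (1 : ℝ≥0∞)) (T₃ x)) ∂(F.mu ν) =
      ∫⁻ x, 2 * (F.DSet S ∪ (S ∩ (F.KA ∩ T₂ ⁻¹' (F.DSet F.KA)))).indicator
        (fun _ => (1 : ℝ≥0∞)) x ∂(F.mu ν) := by
    refine lintegral_congr_ae (hc.mono fun x hx => ?_)
    exact F.count_pointwise hK T₂ rfl hx
  have hind : Measurable ((F.DSet S).indicator (fun _ => (1 : ℝ≥0∞))) :=
    measurable_const.indicator hDS
  have hi2 : ∫⁻ x, (F.DSet S).indicator (fun _ => (1 : ℝ≥0∞)) (T₂ x) ∂(F.mu ν) =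
      F.mu ν (F.DSet S) := by
    rw [← lintegral_map hind h₂, m₂, lintegral_indicator hDS]
    simp
  have hi3 : ∫⁻ x, (F.DSet S).indicator (fun _ => (1 : ℝ≥0∞)) (T₃ x) ∂(F.mu ν) =
      F.mu ν (F.DSet S) := by
    rw [← lintegral_map hind h₃, m₃, lintegral_indicator hDS]
    simp
  have hi1 : ∫⁻ x, (F.DSet S).indicator (fun _ => (1 : ℝ≥0∞)) x ∂(F.mu ν) =
      F.mu ν (F.DSet S) := by
    rw [lintegral_indicator hDS]
    simp
  have hm12 : Measurable fun x => (F.DSet S).indicator (fun _ => (1 : ℝ≥0∞)) x +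
      (F.DSet S).indicator (fun _ => (1 : ℝ≥0∞)) (T₂ x) := hind.add (hind.comp h₂)
  rw [lintegral_add_left hm12, lintegral_add_left hind, hi1, hi2, hi3,
    lintegral_const_mul _ (measurable_const.indicator (hDS.union hSE)),
    lintegral_indicator (hDS.union hSE)] at key
  have hdisj : Disjoint (F.DSet S) (S ∩ (F.KA ∩ T₂ ⁻¹' (F.DSet F.KA))) := by
    rw [Set.disjoint_left]
    intro x hx hx2
    exact F.not_mem_DSet hK (hK hx2.1) hx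
  have hun : ∫⁻ _ in F.DSet S ∪ (S ∩ (F.KA ∩ T₂ ⁻¹' (F.DSet F.KA))), (1 : ℝ≥0∞) ∂(F.mu ν) =
      2 * ν S + 2 * ν (S ∩ (F.KA ∩ T₂ ⁻¹' (F.DSet F.KA))) := by
    rw [lintegral_const, one_mul, Measure.restrict_apply_univ, measure_union hdisj hSE,
      F.mu_DSet ν hν hS hK, F.mu_of_subset_KA ν hν hSE hSEK]
  rw [hun, F.mu_DSet ν hν hS hK] at key
  have f1 : ν S ≠ ⊤ := measure_ne_top _ _
  have f2 : ν (S ∩ (F.KA ∩ T₂ ⁻¹' (F.DSet F.KA))) ≠ ⊤ := measure_ne_top _ _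
  lift ν S to NNReal using f1 with p
  lift ν (S ∩ (F.KA ∩ T₂ ⁻¹' (F.DSet F.KA))) to NNReal using f2 with q
  have key' : (2 * p + 2 * p + 2 * p : NNReal) = 2 * (2 * p + 2 * q) := by
    exact_mod_cast key
  have : (p : NNReal) = 2 * q := by
    have h := congrArg NNReal.toReal key'
    push_cast at h
    apply NNReal.coe_injective
    push_cast
    linarith
  exact_mod_cast this

/-- piece STR2: counting.  For measurable `S ⊆ KA` let `D S = Y true '' S ∪ Z true '' S`.  A contact triple has two points in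
`D S` if it is `(a, Y true a, Z true a)` (up to order) with `a ∈ S`, none otherwise.  With
`E₁ = KA ∩ T₂⁻¹ (D KA)`: `1_{D S}(x) + 1_{D S}(T₂ x) + 1_{D S}(T₃ x) = 2 · 1_{D S ∪ (S ∩ E₁)}(x)` a.e., integrate:
`3 μ(D S) = 2 (μ(D S) + μ(S ∩ E₁))`; `μ(D S) = 2 ν(S)`, `μ = 2ν` on `KA`: `ν S = 2 ν (S ∩ E₁)`.
`S = E₁` gives `ν E₁ = 0`, then `S = KA` gives `ν KA = 0`. -/
theorem not_contact_ae (ν : Measure X) [IsFiniteMeasure ν] (hν : ν F.KAᶜ = 0) (hν0 : ν ≠ 0)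
    (T₂ T₃ : X → X) (h₂ : Measurable T₂) (h₃ : Measurable T₃)
    (m₂ : (F.mu ν).map T₂ = F.mu ν) (m₃ : (F.mu ν).map T₃ = F.mu ν) :
    ¬ ∀ᵐ x ∂(F.mu ν), F.Contact x (T₂ x) (T₃ x) := by
  intro hc
  have hE : MeasurableSet (F.KA ∩ T₂ ⁻¹' (F.DSet F.KA)) :=
    F.mKA.inter (h₂ (F.measurableSet_DSet F.mKA (le_refl _)))
  have hA := F.count ν hν T₂ T₃ h₂ h₃ m₂ m₃ hc hE Set.inter_subset_left
  rw [Set.inter_self] at hA
  have hE0 : ν (F.KA ∩ T₂ ⁻¹' (F.DSet F.KA)) = 0 := by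
    have f1 : ν (F.KA ∩ T₂ ⁻¹' (F.DSet F.KA)) ≠ ⊤ := measure_ne_top _ _
    by_contra hne
    have h1 : ν (F.KA ∩ T₂ ⁻¹' (F.DSet F.KA)) + 0 =
        ν (F.KA ∩ T₂ ⁻¹' (F.DSet F.KA)) + ν (F.KA ∩ T₂ ⁻¹' (F.DSet F.KA)) := by
      rw [add_zero, ← two_mul]
      exact hA
    exact hne ((ENNReal.add_right_inj f1).1 h1).symm
  have hB := F.count ν hν T₂ T₃ h₂ h₃ m₂ m₃ hc F.mKA (le_refl _)
  rw [← Set.inter_assoc, Set.inter_self, hE0, mul_zero] at hB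
  apply hν0
  rw [← Measure.measure_univ_eq_zero, ← Set.union_compl_self F.KA]
  refine le_antisymm (le_trans (measure_union_le _ _) ?_) (by simp)
  rw [hB, hν, add_zero]

end Conf

end Crest.Agent.R130
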