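import Crest.Agent.R130.Transp
import Crest.Agent.R130.AbsA

/-!
# Row 130, piece APX: nearly optimal Monge plans

Cells `Q j` of the partition of `KA`, halves `Q' j ⊆ Q j` (`exists_half` for `ν`).  Pieces indexed by
`Fin n × Bool × Fin 3`: `(j, i, 0) ↦ Q' j` or `Q j \ Q' j` (for `i = true / false`), `(j, i, 1) ↦ Y i '' Q j`, `(j, i, 2) ↦ Z i '' Q j`;
all three have `mu`-measure `ν (Q j)` (`mu = 2ν` on `KA`).  `σ` = cyclic shift of the last coordinate (`finRotate 3`), `T₂` from `σ`,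
`T₃` from `σ * σ` (`exists_perm_transport`).  Then `(x, T₂ x, T₃ x)` is a cyclic permutation of a point of
`Q j × Y i '' Q j × Z i '' Q j`, so `C ≤ v + v + v + ε` (symmetry of `C`); integrate.
-/

set_option autoImplicit false
open MeasureTheory Set
open scoped ENNReal

namespace Crest.Agent.R130

namespace Conf

section APX

variable {X : Type*} [MeasurableSpace X] {C : X × X × X → ℝ≥0∞} (F : Conf C)

theorem APX_mu_apply (ν : Measure X) {S : Set X} (hS : MeasurableSet S) :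
    F.mu ν S = ν S + ν S + ((ν (F.Y true ⁻¹' S) + ν (F.Z true ⁻¹' S)) +
      (ν (F.Y false ⁻¹' S) + ν (F.Z false ⁻¹' S))) := by
  unfold mu
  simp only [Measure.add_apply, Measure.map_apply (F.mY _) hS, Measure.map_apply (F.mZ _) hS]

theorem APX_null {ν : Measure X} (hν : ν F.KAᶜ = 0) {S : Set X} (h : ∀ a ∈ F.KA, a ∉ S) :
    ν S = 0 :=
  measure_mono_null (fun a ha hK => h a hK ha) hν

theorem APX_congr {ν : Measure X} (hν : ν F.KAᶜ = 0) {S S' : Set X}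
    (h : ∀ a ∈ F.KA, (a ∈ S ↔ a ∈ S')) : ν S = ν S' := by
  have h1 : ∀ᵐ a ∂ν, a ∈ F.KA := mem_ae_iff.2 hν
  refine measure_congr ?_
  filter_upwards [h1] with a ha
  exact propext (h a ha)

theorem APX_mu_A {ν : Measure X} (hν : ν F.KAᶜ = 0) {S : Set X} (hS : MeasurableSet S)
    (hSK : S ⊆ F.KA) : F.mu ν S = ν S + ν S := by
  rw [F.APX_mu_apply ν hS]
  have hY : ∀ i, ν (F.Y i ⁻¹' S) = 0 := fun i =>
    F.APX_null hν fun a ha hx => F.dAY i a ha _ (hSK hx) rfl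
  have hZ : ∀ i, ν (F.Z i ⁻¹' S) = 0 := fun i =>
    F.APX_null hν fun a ha hx => F.dAZ i a ha _ (hSK hx) rfl
  rw [hY, hY, hZ, hZ]
  simp

theorem APX_mu_Y {ν : Measure X} (hν : ν F.KAᶜ = 0) {S : Set X} (hS : MeasurableSet S)
    (hSK : S ⊆ F.KA) (i : Bool) : F.mu ν (F.Y i '' S) = ν S := by
  rw [F.APX_mu_apply ν (F.imY i S hS hSK)]
  have h0 : ν (F.Y i '' S) = 0 := F.APX_null hν fun a ha hx => by
    obtain ⟨b, hb, hba⟩ := hx
    exact F.dAY i b (hSK hb) a ha hba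
  have hZ : ∀ j, ν (F.Z j ⁻¹' (F.Y i '' S)) = 0 := fun j => F.APX_null hν fun a ha hx => by
    obtain ⟨b, hb, hba⟩ := hx
    exact F.dYZ i j b (hSK hb) a ha hba
  have hYi : ν (F.Y i ⁻¹' (F.Y i '' S)) = ν S := F.APX_congr hν fun a ha => by
    constructor
    · rintro ⟨b, hb, hba⟩
      rwa [← F.injY i (hSK hb) ha hba]
    · intro h
      exact ⟨a, h, rfl⟩
  have hYj : ∀ j, j ≠ i → ν (F.Y j ⁻¹' (F.Y i '' S)) = 0 := fun j hj =>
    F.APX_null hν fun a ha hx => by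
      obtain ⟨b, hb, hba⟩ := hx
      cases i <;> cases j
      · exact hj rfl
      · exact F.dYY a ha b (hSK hb) hba.symm
      · exact F.dYY b (hSK hb) a ha hba
      · exact hj rfl
  rw [h0, hZ, hZ]
  cases i
  · rw [hYi, hYj true (by decide)]
    simp
  · rw [hYi, hYj false (by decide)]
    simp

theorem APX_mu_Z {ν : Measure X} (hν : ν F.KAᶜ = 0) {S : Set X} (hS : MeasurableSet S)
    (hSK : S ⊆ F.KA) (i : Bool) : F.mu ν (F.Z i '' S) = ν S := by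
  rw [F.APX_mu_apply ν (F.imZ i S hS hSK)]
  have h0 : ν (F.Z i '' S) = 0 := F.APX_null hν fun a ha hx => by
    obtain ⟨b, hb, hba⟩ := hx
    exact F.dAZ i b (hSK hb) a ha hba
  have hY : ∀ j, ν (F.Y j ⁻¹' (F.Z i '' S)) = 0 := fun j => F.APX_null hν fun a ha hx => by
    obtain ⟨b, hb, hba⟩ := hx
    exact F.dYZ j i a ha b (hSK hb) hba.symm
  have hZi : ν (F.Z i ⁻¹' (F.Z i '' S)) = ν S := F.APX_congr hν fun a ha => by
    constructor
    · rintro ⟨b, hb, hba⟩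
      rwa [← F.injZ i (hSK hb) ha hba]
    · intro h
      exact ⟨a, h, rfl⟩
  have hZj : ∀ j, j ≠ i → ν (F.Z j ⁻¹' (F.Z i '' S)) = 0 := fun j hj =>
    F.APX_null hν fun a ha hx => by
      obtain ⟨b, hb, hba⟩ := hx
      cases i <;> cases j
      · exact hj rfl
      · exact F.dZZ a ha b (hSK hb) hba.symm
      · exact F.dZZ b (hSK hb) a ha hba
      · exact hj rfl
  rw [h0, hY, hY]
  cases i
  · rw [hZi, hZj true (by decide)]
    simp
  · rw [hZi, hZj false (by decide)]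
    simp

/-- the pieces -/
def APXP {n : ℕ} (Q Q' : Fin n → Set X) (a : Fin n × Bool × Fin 3) : Set X :=
  if a.2.2 = 0 then (if a.2.1 = true then Q' a.1 else Q a.1 \ Q' a.1)
  else if a.2.2 = 1 then F.Y a.2.1 '' Q a.1 else F.Z a.2.1 '' Q a.1

theorem APXP_zero {n : ℕ} {Q Q' : Fin n → Set X} (hQ' : ∀ j, Q' j ⊆ Q j) (j : Fin n) (i : Bool)
    {x : X} (hx : x ∈ F.APXP Q Q' (j, i, 0)) : x ∈ Q j := by
  cases i
  · exact hx.1
  · exact hQ' j hx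

theorem APXP_one {n : ℕ} {Q Q' : Fin n → Set X} (j : Fin n) (i : Bool) :
    F.APXP Q Q' (j, i, 1) = F.Y i '' Q j := rfl

theorem APXP_two {n : ℕ} {Q Q' : Fin n → Set X} (j : Fin n) (i : Bool) :
    F.APXP Q Q' (j, i, 2) = F.Z i '' Q j := rfl

theorem APXP_inj {n : ℕ} {Q Q' : Fin n → Set X} (hQ' : ∀ j, Q' j ⊆ Q j)
    (hdis : Pairwise (Function.onFun Disjoint Q)) (hQK : ∀ j, Q j ⊆ F.KA)
    (a b : Fin n × Bool × Fin 3) {x : X} (ha : x ∈ F.APXP Q Q' a) (hb : x ∈ F.APXP Q Q' b) :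
    a = b := by
  have hQinj : ∀ {j j' : Fin n} {y : X}, y ∈ Q j → y ∈ Q j' → j = j' := by
    intro j j' y h1 h2
    by_contra hne
    exact Set.disjoint_left.1 (hdis hne) h1 h2
  obtain ⟨j, i, k⟩ := a
  obtain ⟨j', i', k'⟩ := b
  fin_cases k <;> fin_cases k'
  · have h1 := F.APXP_zero hQ' j i ha
    have h2 := F.APXP_zero hQ' j' i' hb
    obtain rfl := hQinj h1 h2
    cases i <;> cases i'
    · rfl
    · exact absurd hb ha.2
    · exact absurd ha hb.2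
    · rfl
  · exfalso
    have h1 := F.APXP_zero hQ' j i ha
    obtain ⟨y, hy, hyx⟩ := hb
    exact F.dAY i' y (hQK _ hy) x (hQK _ h1) hyx
  · exfalso
    have h1 := F.APXP_zero hQ' j i ha
    obtain ⟨y, hy, hyx⟩ := hb
    exact F.dAZ i' y (hQK _ hy) x (hQK _ h1) hyx
  · exfalso
    have h1 := F.APXP_zero hQ' j' i' hb
    obtain ⟨y, hy, hyx⟩ := ha
    exact F.dAY i y (hQK _ hy) x (hQK _ h1) hyx
  · obtain ⟨y, hy, hyx⟩ := ha
    obtain ⟨z, hz, hzx⟩ := hb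
    change y ∈ Q j at hy
    change z ∈ Q j' at hz
    change F.Y i y = x at hyx
    change F.Y i' z = x at hzx
    cases i <;> cases i'
    · obtain rfl := F.injY false (hQK _ hy) (hQK _ hz) (hyx.trans hzx.symm)
      rw [hQinj hy hz]
    · exact absurd (hzx.trans hyx.symm) (F.dYY z (hQK _ hz) y (hQK _ hy))
    · exact absurd (hyx.trans hzx.symm) (F.dYY y (hQK _ hy) z (hQK _ hz))
    · obtain rfl := F.injY true (hQK _ hy) (hQK _ hz) (hyx.trans hzx.symm)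
      rw [hQinj hy hz]
  · exfalso
    obtain ⟨y, hy, hyx⟩ := ha
    obtain ⟨z, hz, hzx⟩ := hb
    exact F.dYZ i i' y (hQK _ hy) z (hQK _ hz) (hyx.trans hzx.symm)
  · exfalso
    have h1 := F.APXP_zero hQ' j' i' hb
    obtain ⟨y, hy, hyx⟩ := ha
    exact F.dAZ i y (hQK _ hy) x (hQK _ h1) hyx
  · exfalso
    obtain ⟨y, hy, hyx⟩ := ha
    obtain ⟨z, hz, hzx⟩ := hb
    exact F.dYZ i' i z (hQK _ hz) y (hQK _ hy) (hzx.trans hyx.symm)
  · obtain ⟨y, hy, hyx⟩ := ha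
    obtain ⟨z, hz, hzx⟩ := hb
    change y ∈ Q j at hy
    change z ∈ Q j' at hz
    change F.Z i y = x at hyx
    change F.Z i' z = x at hzx
    cases i <;> cases i'
    · obtain rfl := F.injZ false (hQK _ hy) (hQK _ hz) (hyx.trans hzx.symm)
      rw [hQinj hy hz]
    · exact absurd (hzx.trans hyx.symm) (F.dZZ z (hQK _ hz) y (hQK _ hy))
    · exact absurd (hyx.trans hzx.symm) (F.dZZ y (hQK _ hy) z (hQK _ hz))
    · obtain rfl := F.injZ true (hQK _ hy) (hQK _ hz) (hyx.trans hzx.symm)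
      rw [hQinj hy hz]

/-- the cyclic shift -/
def APXσ (n : ℕ) : Equiv.Perm (Fin n × Bool × Fin 3) :=
  Equiv.prodCongr (Equiv.refl _) (Equiv.prodCongr (Equiv.refl _) (Equiv.addRight 1))

theorem APX_ineq {ε : ℝ≥0∞} {n : ℕ} {Q Q' : Fin n → Set X} (hQ' : ∀ j, Q' j ⊆ Q j)
    (hC : ∀ j (i : Bool), ∀ x ∈ Q j, ∀ x₁ ∈ Q j, ∀ x₂ ∈ Q j,
      C (x, F.Y i x₁, F.Z i x₂) ≤ F.v x + F.v (F.Y i x₁) + F.v (F.Z i x₂) + ε)
    (a : Fin n × Bool × Fin 3) {x y z : X} (hx : x ∈ F.APXP Q Q' a)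
    (hy : y ∈ F.APXP Q Q' (APXσ n a)) (hz : z ∈ F.APXP Q Q' ((APXσ n * APXσ n) a)) :
    C (x, y, z) ≤ F.v x + F.v y + F.v z + ε := by
  obtain ⟨j, i, k⟩ := a
  fin_cases k
  · have h1 := F.APXP_zero hQ' j i hx
    obtain ⟨y', hy', rfl⟩ : y ∈ F.Y i '' Q j := hy
    obtain ⟨z', hz', rfl⟩ : z ∈ F.Z i '' Q j := hz
    exact hC j i x h1 y' hy' z' hz'
  · obtain ⟨x', hx', rfl⟩ : x ∈ F.Y i '' Q j := hx
    obtain ⟨y', hy', rfl⟩ : y ∈ F.Z i '' Q j := hy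
    have h1 : z ∈ Q j := F.APXP_zero hQ' j i hz
    have h2 := hC j i z h1 x' hx' y' hy'
    rw [F.symm23, F.symm12]
    refine h2.trans (le_of_eq ?_)
    ring
  · obtain ⟨x', hx', rfl⟩ : x ∈ F.Z i '' Q j := hx
    have h1 : y ∈ Q j := F.APXP_zero hQ' j i hy
    obtain ⟨z', hz', rfl⟩ : z ∈ F.Y i '' Q j := hz
    have h2 := hC j i y h1 z' hz' x' hx'
    rw [F.symm12, F.symm23]
    refine h2.trans (le_of_eq ?_)
    ring

end APX

variable {d : ℕ} {C : E d × E d × E d → ℝ≥0∞} (F : Conf C)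

theorem approx (hd : 0 < d) (ν : Measure (E d)) [IsFiniteMeasure ν] (hν : ν F.KAᶜ = 0)
    (hac : ν ≪ volume) (hmu : F.mu ν ≪ volume) {ε : ℝ≥0∞} {n : ℕ} (Q : Fin n → Set (E d))
    (hQ : ∀ j, MeasurableSet (Q j)) (hdis : Pairwise (Function.onFun Disjoint Q))
    (hcov : (⋃ j, Q j) = F.KA)
    (hC : ∀ j (i : Bool), ∀ x ∈ Q j, ∀ x₁ ∈ Q j, ∀ x₂ ∈ Q j,
      C (x, F.Y i x₁, F.Z i x₂) ≤ F.v x + F.v (F.Y i x₁) + F.v (F.Z i x₂) + ε) :
    ∃ T₂ T₃ : E d → E d, Measurable T₂ ∧ Measurable T₃ ∧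
      (F.mu ν).map T₂ = F.mu ν ∧ (F.mu ν).map T₃ = F.mu ν ∧
      ∫⁻ x, C (x, T₂ x, T₃ x) ∂(F.mu ν) ≤
        3 * ∫⁻ x, F.v x ∂(F.mu ν) + ε * F.mu ν univ := by
  have hfin : IsFiniteMeasure (F.mu ν) := by
    unfold mu
    infer_instance
  have hQK : ∀ j, Q j ⊆ F.KA := fun j => by
    rw [← hcov]
    exact Set.subset_iUnion Q j
  choose Q' hQ'Q hQ'm hQ'h using fun j => exists_half hd ν hac (hQ j)
  have hhalf : ∀ j, ν (Q' j) + ν (Q' j) = ν (Q j) := by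
    intro j
    have h1 : ν (Q j) = ν (Q' j) + ν (Q j \ Q' j) := by
      have h2 := measure_inter_add_sdiff (μ := ν) (Q j) (hQ'm j)
      rw [Set.inter_eq_self_of_subset_right (hQ'Q j)] at h2
      exact h2.symm
    rw [h1, ← hQ'h j]
  have hPm : ∀ a, MeasurableSet (F.APXP Q Q' a) := by
    rintro ⟨j, i, k⟩
    fin_cases k
    · cases i
      · exact (hQ j).diff (hQ'm j)
      · exact hQ'm j
    · exact F.imY i _ (hQ j) (hQK j)
    · exact F.imZ i _ (hQ j) (hQK j)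
  have hPμ : ∀ a, F.mu ν (F.APXP Q Q' a) = ν (Q a.1) := by
    rintro ⟨j, i, k⟩
    fin_cases k
    · cases i
      · have : F.mu ν (Q j \ Q' j) = ν (Q j) := by
          rw [F.APX_mu_A hν ((hQ j).diff (hQ'm j)) (sdiff_subset.trans (hQK j)), ← hQ'h j, hhalf]
        exact this
      · have : F.mu ν (Q' j) = ν (Q j) := by
          rw [F.APX_mu_A hν (hQ'm j) ((hQ'Q j).trans (hQK j)), hhalf]
        exact this
    · exact F.APX_mu_Y hν (hQ j) (hQK j) i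
    · exact F.APX_mu_Z hν (hQ j) (hQK j) i
  have hPd : Pairwise (Function.onFun Disjoint (F.APXP Q Q')) := by
    intro a b hab
    refine Set.disjoint_left.2 fun x hxa hxb => hab ?_
    exact F.APXP_inj hQ'Q hdis hQK a b hxa hxb
  have hPc : F.mu ν (⋃ a, F.APXP Q Q' a)ᶜ = 0 := by
    refine measure_mono_null ?_ (F.mu_K ν hν)
    refine compl_subset_compl.2 ?_
    rintro x (hx | hx)
    · rw [← hcov] at hx
      obtain ⟨j, hj⟩ := Set.mem_iUnion.1 hx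
      by_cases h : x ∈ Q' j
      · exact Set.mem_iUnion.2 ⟨(j, true, 0), h⟩
      · exact Set.mem_iUnion.2 ⟨(j, false, 0), hj, h⟩
    · obtain ⟨i, hi⟩ := Set.mem_iUnion.1 hx
      rcases hi with hi | hi
      · obtain ⟨y, hy, rfl⟩ := hi
        rw [← hcov] at hy
        obtain ⟨j, hj⟩ := Set.mem_iUnion.1 hy
        exact Set.mem_iUnion.2 ⟨(j, i, 1), y, hj, rfl⟩
      · obtain ⟨y, hy, rfl⟩ := hi
        rw [← hcov] at hy
        obtain ⟨j, hj⟩ := Set.mem_iUnion.1 hy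
        exact Set.mem_iUnion.2 ⟨(j, i, 2), y, hj, rfl⟩
  have hσ : ∀ a, F.mu ν (F.APXP Q Q' a) = F.mu ν (F.APXP Q Q' (APXσ n a)) := by
    intro a
    rw [hPμ, hPμ]
    rfl
  have hσ2 : ∀ a, F.mu ν (F.APXP Q Q' a) = F.mu ν (F.APXP Q Q' ((APXσ n * APXσ n) a)) := by
    intro a
    rw [hPμ, hPμ]
    rfl
  obtain ⟨T₂, hT₂m, hT₂μ, hT₂⟩ := exists_perm_transport hd (F.mu ν) hmu (F.APXP Q Q') hPm hPd hPc
    (APXσ n) hσ
  obtain ⟨T₃, hT₃m, hT₃μ, hT₃⟩ := exists_perm_transport hd (F.mu ν) hmu (F.APXP Q Q') hPm hPd hPc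
    (APXσ n * APXσ n) hσ2
  refine ⟨T₂, T₃, hT₂m, hT₃m, hT₂μ, hT₃μ, ?_⟩
  have hae : ∀ᵐ x ∂(F.mu ν), C (x, T₂ x, T₃ x) ≤ F.v x + F.v (T₂ x) + F.v (T₃ x) + ε := by
    have h1 : ∀ᵐ x ∂(F.mu ν), x ∈ ⋃ a, F.APXP Q Q' a := mem_ae_iff.2 hPc
    filter_upwards [h1, ae_all_iff.2 hT₂, ae_all_iff.2 hT₃] with x hx h2 h3
    obtain ⟨a, ha⟩ := Set.mem_iUnion.1 hx
    exact F.APX_ineq hQ'Q hC a ha (h2 a ha) (h3 a ha)
  have hv2 : ∫⁻ x, F.v (T₂ x) ∂(F.mu ν) = ∫⁻ x, F.v x ∂(F.mu ν) := by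
    rw [← lintegral_map F.mv hT₂m, hT₂μ]
  have hv3 : ∫⁻ x, F.v (T₃ x) ∂(F.mu ν) = ∫⁻ x, F.v x ∂(F.mu ν) := by
    rw [← lintegral_map F.mv hT₃m, hT₃μ]
  calc ∫⁻ x, C (x, T₂ x, T₃ x) ∂(F.mu ν)
      ≤ ∫⁻ x, F.v x + F.v (T₂ x) + F.v (T₃ x) + ε ∂(F.mu ν) := lintegral_mono_ae hae
    _ = ∫⁻ x, F.v x ∂(F.mu ν) + ∫⁻ x, F.v (T₂ x) ∂(F.mu ν) + ∫⁻ x, F.v (T₃ x) ∂(F.mu ν) +
        ε * F.mu ν univ := by
        have m3 : Measurable fun x => F.v (T₃ x) := F.mv.comp hT₃m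
        have m2 : Measurable fun x => F.v (T₂ x) := F.mv.comp hT₂m
        rw [lintegral_add_right _ measurable_const, lintegral_const,
          lintegral_add_right _ m3, lintegral_add_right _ m2]
    _ = 3 * ∫⁻ x, F.v x ∂(F.mu ν) + ε * F.mu ν univ := by
        rw [hv2, hv3]
        ring

end Conf

end Crest.Agent.R130
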