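import Mathlib
import Crest.Prelude.Def_MultiMarginal

/-!
# Row 130 (S0175): three-marginal optimal transport with Riesz cost, smooth marginal, no optimal Monge plan
(helper15, own proof).

Five small blobs: `A` at `0`, `B1` at `e`, `C1` at `-e`, `B2` at `R e`, `C2` at `-R e`, where `‖e‖ = 1`,
`R` an isometric involution, `⟪e, R e⟫ = 0`.  The potentials are `uA x = c0 - (s κ/2) ‖x‖²` on `A`,
`uB y = -s (1 + 2 τ) ⟪e, y - e⟫ - 4 s ‖y - e‖²` on `B1`, and `uC z = min_{x,y} (c(x,y,z) - uA x - uB y)` on `C1`;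
they are transported by `R` to `B2, C2`.  The contact set consists exactly of the triples `(a, Y i a, Z i a)`
(`i = true, false`: two branches) and their permutations, so a Monge plan cannot be optimal: the mass at `a ∈ A`
would have to be split equally between the two branches.

Critical point equations (`V w = ‖w‖^(-s-2) w`): `V (x - y) + V (x - z) = κ x`,
`V (y - x) + V (y - z) = (1 + 2τ) e + 8 (y - e)`.
-/

set_option autoImplicit false
open MeasureTheory Metric Set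
open scoped ENNReal ContDiff
open Crest.AnalysisR.OT

namespace Crest.Agent.R130

noncomputable section

/-- the Euclidean space -/
abbrev E (d : ℕ) := EuclideanSpace ℝ (Fin d)

variable {d : ℕ}

/-- `-∇ ‖w‖^(-s) / s` -/
def V (s : ℝ) (w : E d) : E d := (‖w‖ ^ (-s - 2)) • w

def tau (s : ℝ) : ℝ := (2 : ℝ) ^ (-s - 2)

def kap (s : ℝ) : ℝ := (2 : ℝ) ^ (s + 5)

def c0 (s : ℝ) : ℝ := 2 + (2 : ℝ) ^ (-s)

/-- the real cost (equal to the `ℝ≥0∞` cost for distinct points) -/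
def cr (s : ℝ) (x y z : E d) : ℝ := ‖x - y‖ ^ (-s) + ‖x - z‖ ^ (-s) + ‖y - z‖ ^ (-s)

def uA (s : ℝ) (x : E d) : ℝ := c0 s - s * kap s / 2 * ‖x‖ ^ 2

def uB (s : ℝ) (e y : E d) : ℝ :=
  -s * (1 + 2 * tau s) * inner ℝ e (y - e) - 4 * s * ‖y - e‖ ^ 2

/-- Local solution of the critical point equations: `P x` near `e`, `Q x` near `-e`. -/
structure Loc (s η : ℝ) {d : ℕ} (e : E d) where
  r : ℝ
  hr : 0 < r
  hrη : r ≤ η
  P : OpenPartialHomeomorph (E d) (E d)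
  Q : OpenPartialHomeomorph (E d) (E d)
  hP : closedBall 0 r ⊆ P.source
  hQ : closedBall 0 r ⊆ Q.source
  sP : ContDiffOn ℝ ∞ P P.source
  sP' : ContDiffOn ℝ ∞ P.symm P.target
  sQ : ContDiffOn ℝ ∞ Q Q.source
  sQ' : ContDiffOn ℝ ∞ Q.symm Q.target
  eq1 : ∀ x ∈ closedBall (0 : E d) r, V s (x - P x) + V s (x - Q x) = kap s • x
  eq2 : ∀ x ∈ closedBall (0 : E d) r,
    V s (P x - x) + V s (P x - Q x) = (1 + 2 * tau s) • e + (8 : ℝ) • (P x - e)
  nearP : ∀ x ∈ closedBall (0 : E d) r, ‖P x - e‖ ≤ η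
  nearQ : ∀ x ∈ closedBall (0 : E d) r, ‖Q x + e‖ ≤ η
  bA : ∀ x ∈ closedBall (0 : E d) r, |uA s x - c0 s| ≤ η
  bB : ∀ x ∈ closedBall (0 : E d) r, |uB s e (P x)| ≤ η
  bC : ∀ x ∈ closedBall (0 : E d) r, |cr s x (P x) (Q x) - uA s x - uB s e (P x)| ≤ η

/-- smallness conditions on `η` -/
structure Good (s η : ℝ) : Prop where
  pos : 0 < η
  le : η ≤ 1 / 8
  /-- two points of the same blob are at distance `≤ 2η` -/
  close : 3 * (c0 s + η) < (2 * η) ^ (-s)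
  /-- no point in the central blob -/
  noA : 3 * η < 3 * (3 : ℝ) ^ (-s)
  /-- centre and two non antipodal outer blobs -/
  side : c0 s + 3 * η < 2 * (1 + 2 * η) ^ (-s) + (Real.sqrt 2 + 2 * η) ^ (-s)
  /-- distances `≥ 1 - 2η` -/
  lam : (1 - 2 * η) ^ (-s - 2) ≤ 2

namespace Loc

variable {s η : ℝ} {e : E d} (L : Loc s η e) (R : E d ≃ₗᵢ[ℝ] E d)

def KA : Set (E d) := closedBall 0 L.r

def uC (z : E d) : ℝ :=
  cr s (L.Q.symm z) (L.P (L.Q.symm z)) z - uA s (L.Q.symm z) - uB s e (L.P (L.Q.symm z))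

open Classical in
/-- `P` made globally measurable -/
def Pm (x : E d) : E d := if x ∈ L.KA then L.P x else 0

open Classical in
def Qm (x : E d) : E d := if x ∈ L.KA then L.Q x else 0

def Y (i : Bool) (x : E d) : E d := if i then L.Pm x else R (L.Pm (R x))

def Z (i : Bool) (x : E d) : E d := if i then L.Qm x else R (L.Qm (R x))

open Classical in
/-- the global potential -/
def U (x : E d) : ℝ :=
  if x ∈ L.KA then uA s x
  else if x ∈ L.P '' L.KA then uB s e x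
  else if x ∈ L.Q '' L.KA then L.uC x
  else if R x ∈ L.P '' L.KA then uB s e (R x)
  else if R x ∈ L.Q '' L.KA then L.uC (R x)
  else 0

end Loc

/-- Abstract configuration: two branches (`i : Bool`) of triples `(a, Y i a, Z i a)`, `a ∈ KA`. -/
structure Conf {X : Type*} [MeasurableSpace X] (C : X × X × X → ℝ≥0∞) where
  KA : Set X
  Y : Bool → X → X
  Z : Bool → X → X
  v : X → ℝ≥0∞
  mC : Measurable C
  mKA : MeasurableSet KA
  mY : ∀ i, Measurable (Y i)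
  mZ : ∀ i, Measurable (Z i)
  mv : Measurable v
  vfin : ∃ M : ℝ≥0∞, M ≠ ⊤ ∧ ∀ x, v x ≤ M
  imY : ∀ i S, MeasurableSet S → S ⊆ KA → MeasurableSet (Y i '' S)
  imZ : ∀ i S, MeasurableSet S → S ⊆ KA → MeasurableSet (Z i '' S)
  injY : ∀ i, InjOn (Y i) KA
  injZ : ∀ i, InjOn (Z i) KA
  dAY : ∀ i, ∀ a ∈ KA, ∀ b ∈ KA, Y i a ≠ b
  dAZ : ∀ i, ∀ a ∈ KA, ∀ b ∈ KA, Z i a ≠ b
  dYZ : ∀ i j, ∀ a ∈ KA, ∀ b ∈ KA, Y i a ≠ Z j b
  dYY : ∀ a ∈ KA, ∀ b ∈ KA, Y true a ≠ Y false b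
  dZZ : ∀ a ∈ KA, ∀ b ∈ KA, Z true a ≠ Z false b
  hcon : ∀ i, ∀ a ∈ KA, C (a, Y i a, Z i a) = v a + v (Y i a) + v (Z i a)
  symm12 : ∀ x y z, C (x, y, z) = C (y, x, z)
  symm23 : ∀ x y z, C (x, y, z) = C (x, z, y)

namespace Conf

variable {X : Type*} [MeasurableSpace X] {C : X × X × X → ℝ≥0∞} (F : Conf C)

/-- the support -/
def K : Set X := F.KA ∪ ⋃ i : Bool, (F.Y i '' F.KA ∪ F.Z i '' F.KA)

/-- the contact triples -/
def Contact (x y z : X) : Prop :=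
  ∃ i : Bool, ∃ a ∈ F.KA,
    (x = a ∧ y = F.Y i a ∧ z = F.Z i a) ∨ (x = a ∧ y = F.Z i a ∧ z = F.Y i a) ∨
    (x = F.Y i a ∧ y = a ∧ z = F.Z i a) ∨ (x = F.Z i a ∧ y = a ∧ z = F.Y i a) ∨
    (x = F.Y i a ∧ y = F.Z i a ∧ z = a) ∨ (x = F.Z i a ∧ y = F.Y i a ∧ z = a)

/-- the two inequalities (dual feasibility and contact set) -/
structure Opt : Prop where
  hle : ∀ x ∈ F.K, ∀ y ∈ F.K, ∀ z ∈ F.K, F.v x + F.v y + F.v z ≤ C (x, y, z)
  heq : ∀ x ∈ F.K, ∀ y ∈ F.K, ∀ z ∈ F.K, C (x, y, z) ≤ F.v x + F.v y + F.v z → F.Contact x y z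

/-- the marginal, from the measure `ν` on `KA` -/
def mu (ν : Measure X) : Measure X :=
  ν + ν + ((ν.map (F.Y true) + ν.map (F.Z true)) + (ν.map (F.Y false) + ν.map (F.Z false)))

/-- one branch of the optimal plan -/
def pib (ν : Measure X) (i : Bool) : Measure (X × X × X) :=
  ν.map (fun a => (a, F.Y i a, F.Z i a)) +
    (ν.map (fun a => (F.Y i a, F.Z i a, a)) + ν.map (fun a => (F.Z i a, a, F.Y i a)))

/-- the optimal plan -/
def pi0 (ν : Measure X) : Measure (X × X × X) := F.pib ν true + F.pib ν false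

end Conf

end

end Crest.Agent.R130
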