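import Crest.Agent.R130.Defs

/-!
# Row 130, piece PHI: a normalised bump function (`ContDiffBump`, scaled so that `6 ∫ φ² = 1`).
-/

set_option autoImplicit false
open MeasureTheory Metric Set
open scoped ContDiff ENNReal
open Crest.AnalysisR.OT

namespace Crest.Agent.R130

variable {d : ℕ}

theorem exists_phi {r : ℝ} (hr : 0 < r) : ∃ φ : E d → ℝ, ContDiff ℝ ∞ φ ∧ (∀ x, 0 ≤ φ x) ∧
    tsupport φ ⊆ closedBall 0 r ∧
    measOfDensity (fun x => φ x ^ 2) univ = ENNReal.ofReal (1 / 6) := by sorry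

end Crest.Agent.R130
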