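import Crest.Agent.R130.Defs

/-!
# Row 130, piece PUSH: push-forward of a smooth density under a local diffeomorphism

`ψ y = φ (P.symm y) * √|det (fderiv P.symm y)|` on `P.target`, `0` elsewhere: smooth since `det ≠ 0` on the target and
`ψ = 0` off the compact set `P '' (tsupport φ)`.  Push-forward formula: change of variables
`lintegral_image_eq_lintegral_abs_det_fderiv_mul` for `P.symm` (injective on `P.target`).
-/

set_option autoImplicit false
open MeasureTheory Metric Set
open scoped ContDiff ENNReal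
open Crest.AnalysisR.OT

namespace Crest.Agent.R130

variable {d : ℕ}

/-- the determinant is a smooth function on the endomorphisms -/
private lemma contDiff_det {n : ℕ∞ω} :
    ContDiff ℝ n (fun A : E d →L[ℝ] E d => A.det) := by
  have h : (fun A : E d →L[ℝ] E d => A.det) = fun A : E d →L[ℝ] E d =>
      ∑ σ : Equiv.Perm (Fin d), ((Equiv.Perm.sign σ : ℤ) : ℝ) *
        ∏ i, (A ((EuclideanSpace.basisFun (Fin d) ℝ) i)) (σ i) := by
    funext A
    have h1 : A.det = LinearMap.det (A : E d →ₗ[ℝ] E d) := rfl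
    rw [h1, ← LinearMap.det_toMatrix (EuclideanSpace.basisFun (Fin d) ℝ).toBasis,
      Matrix.det_apply']
    refine Finset.sum_congr rfl fun σ _ => ?_
    congr 1
    refine Finset.prod_congr rfl fun i _ => ?_
    rw [LinearMap.toMatrix_apply]
    simp
  rw [h]
  refine ContDiff.sum fun σ _ => ?_
  refine contDiff_const.mul ?_
  refine contDiff_prod fun i _ => ?_
  have h2 : (fun A : E d →L[ℝ] E d => (A ((EuclideanSpace.basisFun (Fin d) ℝ) i)) (σ i)) =
      fun A => (EuclideanSpace.proj (σ i) : E d →L[ℝ] ℝ)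
        (ContinuousLinearMap.apply ℝ (E d) ((EuclideanSpace.basisFun (Fin d) ℝ) i) A) := by
    funext A
    rfl
  rw [h2]
  exact (EuclideanSpace.proj (σ i) : E d →L[ℝ] ℝ).contDiff.comp
    (ContinuousLinearMap.apply ℝ (E d) ((EuclideanSpace.basisFun (Fin d) ℝ) i)).contDiff

/-- derivative of the inverse: nonzero determinant -/
private lemma det_symm_ne (P : OpenPartialHomeomorph (E d) (E d))
    (sP : ContDiffOn ℝ ∞ P P.source) (sP' : ContDiffOn ℝ ∞ P.symm P.target)
    {y : E d} (hy : y ∈ P.target) : (fderiv ℝ P.symm y).det ≠ 0 := by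
  have hd1 : DifferentiableAt ℝ P.symm y :=
    ((sP'.differentiableOn (by simp)) y hy).differentiableAt (P.open_target.mem_nhds hy)
  have hx : P.symm y ∈ P.source := P.map_target hy
  have hd2 : DifferentiableAt ℝ P (P.symm y) :=
    ((sP.differentiableOn (by simp)) _ hx).differentiableAt (P.open_source.mem_nhds hx)
  have hcomp : HasFDerivAt (P ∘ P.symm) ((fderiv ℝ P (P.symm y)).comp (fderiv ℝ P.symm y)) y :=
    hd2.hasFDerivAt.comp y hd1.hasFDerivAt
  have hid : (P ∘ P.symm) =ᶠ[nhds y] id := by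
    filter_upwards [P.open_target.mem_nhds hy] with z hz
    exact P.right_inv hz
  have h1 : HasFDerivAt (id : E d → E d) ((fderiv ℝ P (P.symm y)).comp (fderiv ℝ P.symm y)) y :=
    hcomp.congr_of_eventuallyEq hid.symm
  have h2 : (fderiv ℝ P (P.symm y)).comp (fderiv ℝ P.symm y) = ContinuousLinearMap.id ℝ (E d) :=
    h1.unique (hasFDerivAt_id y)
  intro h0
  have h3 : LinearMap.det (((fderiv ℝ P (P.symm y)).comp (fderiv ℝ P.symm y) :
      E d →L[ℝ] E d) : E d →ₗ[ℝ] E d) = 1 := by
    rw [h2]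
    exact LinearMap.det_id
  have h4 : (((fderiv ℝ P (P.symm y)).comp (fderiv ℝ P.symm y) :
      E d →L[ℝ] E d) : E d →ₗ[ℝ] E d) =
      ((fderiv ℝ P (P.symm y) : E d →L[ℝ] E d) : E d →ₗ[ℝ] E d) *
      ((fderiv ℝ P.symm y : E d →L[ℝ] E d) : E d →ₗ[ℝ] E d) := rfl
  rw [h4, map_mul] at h3
  have h5 : LinearMap.det ((fderiv ℝ P.symm y : E d →L[ℝ] E d) : E d →ₗ[ℝ] E d) = 0 := h0
  rw [h5, mul_zero] at h3
  exact zero_ne_one h3

theorem push (P : OpenPartialHomeomorph (E d) (E d)) (sP : ContDiffOn ℝ ∞ P P.source)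
    (sP' : ContDiffOn ℝ ∞ P.symm P.target) (φ : E d → ℝ) (hφ : ContDiff ℝ ∞ φ)
    (h0 : ∀ x, 0 ≤ φ x) {K : Set (E d)} (hKc : IsCompact K) (hK : tsupport φ ⊆ K)
    (hKs : K ⊆ P.source) (Y : E d → E d) (mY : Measurable Y) (hY : ∀ x ∈ K, Y x = P x) :
    ∃ ψ : E d → ℝ, ContDiff ℝ ∞ ψ ∧ (∀ y, 0 ≤ ψ y) ∧ tsupport ψ ⊆ P '' K ∧
      HasCompactSupport ψ ∧
      (measOfDensity (fun x => φ x ^ 2)).map Y = measOfDensity (fun y => ψ y ^ 2) := by
  classical
  set ψ : E d → ℝ := P.target.indicator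
    (fun y => φ (P.symm y) * √|(fderiv ℝ P.symm y).det|) with hψ
  have hPK : IsCompact (P '' K) := hKc.image_of_continuousOn (P.continuousOn.mono hKs)
  have hPKt : P '' K ⊆ P.target := by
    rintro _ ⟨x, hx, rfl⟩
    exact P.map_source (hKs hx)
  have hφK : ∀ x, x ∉ K → φ x = 0 := fun x hx =>
    image_eq_zero_of_notMem_tsupport (fun h => hx (hK h))
  have hψ0 : ∀ y, y ∉ P '' K → ψ y = 0 := by
    intro y hy
    rw [hψ]
    by_cases ht : y ∈ P.target
    · rw [indicator_of_mem ht]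
      have : P.symm y ∉ K := fun h => hy ⟨P.symm y, h, P.right_inv ht⟩
      rw [hφK _ this, zero_mul]
    · rw [indicator_of_notMem ht]
  -- smoothness on the target
  have hsm : ContDiffOn ℝ ∞ (fun y => φ (P.symm y) * √|(fderiv ℝ P.symm y).det|) P.target := by
    have h1 : ContDiffOn ℝ ∞ (fun y => φ (P.symm y)) P.target := hφ.comp_contDiffOn sP'
    have h2 : ContDiffOn ℝ ∞ (fun y => fderiv ℝ P.symm y) P.target :=
      sP'.fderiv_of_isOpen P.open_target (by simp)
    have h3 : ContDiffOn ℝ ∞ (fun y => (fderiv ℝ P.symm y).det) P.target :=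
      contDiff_det.comp_contDiffOn h2
    refine h1.mul ?_
    intro y hy
    have hne := det_symm_ne P sP sP' hy
    have h4 : ContDiffWithinAt ℝ ∞ (fun y => |(fderiv ℝ P.symm y).det|) P.target y :=
      ContDiffAt.comp_contDiffWithinAt (g := fun x : ℝ => |x|) y (contDiffAt_abs hne) (h3 y hy)
    exact (Real.contDiffAt_sqrt (abs_ne_zero.2 hne)).comp_contDiffWithinAt y h4
  have hsmooth : ContDiff ℝ ∞ ψ := by
    rw [contDiff_iff_contDiffAt]
    intro y
    by_cases hy : y ∈ P.target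
    · have h1 := (hsm y hy).contDiffAt (P.open_target.mem_nhds hy)
      refine h1.congr_of_eventuallyEq ?_
      filter_upwards [P.open_target.mem_nhds hy] with z hz
      rw [hψ, indicator_of_mem hz]
    · have hy' : y ∈ (P '' K)ᶜ := fun h => hy (hPKt h)
      have h2 : ψ =ᶠ[nhds y] fun _ => 0 := by
        filter_upwards [hPK.isClosed.isOpen_compl.mem_nhds hy'] with z hz
        exact hψ0 z hz
      exact contDiffAt_const.congr_of_eventuallyEq h2
  have hnn : ∀ y, 0 ≤ ψ y := by
    intro y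
    rw [hψ]
    refine indicator_nonneg (fun z _ => ?_) y
    exact mul_nonneg (h0 _) (Real.sqrt_nonneg _)
  have hts : tsupport ψ ⊆ P '' K := by
    refine closure_minimal ?_ hPK.isClosed
    intro y hy
    by_contra h
    exact hy (hψ0 y h)
  refine ⟨ψ, hsmooth, hnn, hts, HasCompactSupport.of_support_subset_isCompact hPK
    ((subset_tsupport ψ).trans hts), ?_⟩
  -- push-forward
  ext A hA
  rw [Measure.map_apply mY hA]
  simp only [measOfDensity]
  rw [withDensity_apply _ (mY hA), withDensity_apply _ hA]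
  have hsM : MeasurableSet (A ∩ P '' K) := hA.inter hPK.isClosed.measurableSet
  -- left-hand side
  have hL : ∫⁻ x in Y ⁻¹' A, ENNReal.ofReal (φ x ^ 2) =
      ∫⁻ x in (Y ⁻¹' A) ∩ K, ENNReal.ofReal (φ x ^ 2) := by
    rw [← lintegral_indicator (mY hA), ← lintegral_indicator ((mY hA).inter
      hKc.isClosed.measurableSet)]
    congr 1
    funext x
    by_cases h1 : x ∈ Y ⁻¹' A
    · by_cases h2 : x ∈ K
      · rw [indicator_of_mem h1, indicator_of_mem (show x ∈ Y ⁻¹' A ∩ K from ⟨h1, h2⟩)]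
      · rw [indicator_of_mem h1, indicator_of_notMem (fun h => h2 h.2), hφK x h2]
        simp
    · rw [indicator_of_notMem h1, indicator_of_notMem (fun h => h1 h.1)]
  have hR : ∫⁻ y in A, ENNReal.ofReal (ψ y ^ 2) =
      ∫⁻ y in A ∩ P '' K, ENNReal.ofReal (ψ y ^ 2) := by
    rw [← lintegral_indicator hA, ← lintegral_indicator hsM]
    congr 1
    funext x
    by_cases h1 : x ∈ A
    · by_cases h2 : x ∈ P '' K
      · rw [indicator_of_mem h1, indicator_of_mem (show x ∈ A ∩ P '' K from ⟨h1, h2⟩)]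
      · rw [indicator_of_mem h1, indicator_of_notMem (fun h => h2 h.2), hψ0 x h2]
        simp
    · rw [indicator_of_notMem h1, indicator_of_notMem (fun h => h1 h.1)]
  have himg : P.symm '' (A ∩ P '' K) = (Y ⁻¹' A) ∩ K := by
    ext x
    constructor
    · rintro ⟨y, ⟨hyA, x', hx', rfl⟩, rfl⟩
      rw [P.left_inv (hKs hx')]
      exact ⟨by rw [mem_preimage, hY x' hx']; exact hyA, hx'⟩
    · rintro ⟨hxA, hxK⟩
      refine ⟨P x, ⟨?_, x, hxK, rfl⟩, P.left_inv (hKs hxK)⟩
      rw [mem_preimage, hY x hxK] at hxA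
      exact hxA
  rw [hL, hR, ← himg]
  have hder : ∀ y ∈ A ∩ P '' K,
      HasFDerivWithinAt P.symm (fderiv ℝ P.symm y) (A ∩ P '' K) y := by
    intro y hy
    have hyt : y ∈ P.target := hPKt hy.2
    exact (((sP'.differentiableOn (by simp)) y hyt).differentiableAt
      (P.open_target.mem_nhds hyt)).hasFDerivAt.hasFDerivWithinAt
  have hinj : InjOn P.symm (A ∩ P '' K) :=
    P.symm.injOn.mono (fun y hy => hPKt hy.2)
  rw [lintegral_image_eq_lintegral_abs_det_fderiv_mul volume hsM hder hinj]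
  refine setLIntegral_congr_fun hsM ?_
  intro y hy
  have hyt : y ∈ P.target := hPKt hy.2
  simp only
  rw [hψ, indicator_of_mem hyt, ← ENNReal.ofReal_mul (abs_nonneg _), mul_pow,
    Real.sq_sqrt (abs_nonneg _), mul_comm]

end Crest.Agent.R130
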