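import Crest.Agent.R130.MkConf
import Crest.Agent.R130.Push
import Crest.Agent.R130.Phi

/-!
# Row 130, piece DENS: the marginal has a smooth density with smooth square root

`θ = √2 φ + ψ₁ + ψ₂ + ψ₃ + ψ₄` with the `ψ` of `push` for `P`, `Q`, `R ∘ P ∘ R`, `R ∘ Q ∘ R`
(`OpenPartialHomeomorph` compositions with `R.toHomeomorph`); the supports are pairwise disjoint (`tsupport φ ⊆ KA`,
`tsupport ψ ⊆ P '' KA`, ...; use `dAY, dAZ, dYZ, dYY, dZZ` of `mkConf`), so `θ² = 2φ² + ψ₁² + ... + ψ₄²`, and `measOfDensity`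
is additive on nonnegative functions.
-/

set_option autoImplicit false
open MeasureTheory Metric Set
open scoped ContDiff ENNReal
open Crest.AnalysisR.OT

namespace Crest.Agent.R130

variable {d : ℕ}

/-- conjugation of a local homeomorphism by an isometry -/
noncomputable def conjR (R : E d ≃ₗᵢ[ℝ] E d) (P : OpenPartialHomeomorph (E d) (E d)) :
    OpenPartialHomeomorph (E d) (E d) :=
  (R.toHomeomorph.transOpenPartialHomeomorph P).transHomeomorph R.toHomeomorph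

theorem conjR_apply (R : E d ≃ₗᵢ[ℝ] E d) (P : OpenPartialHomeomorph (E d) (E d)) (x : E d) :
    conjR R P x = R (P (R x)) := rfl

theorem conjR_source (R : E d ≃ₗᵢ[ℝ] E d) (P : OpenPartialHomeomorph (E d) (E d)) :
    (conjR R P).source = R ⁻¹' P.source := rfl

theorem conjR_target (R : E d ≃ₗᵢ[ℝ] E d) (P : OpenPartialHomeomorph (E d) (E d)) :
    (conjR R P).target = R.symm ⁻¹' P.target := rfl

theorem conjR_smooth (R : E d ≃ₗᵢ[ℝ] E d) (P : OpenPartialHomeomorph (E d) (E d))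
    (sP : ContDiffOn ℝ ∞ P P.source) : ContDiffOn ℝ ∞ (conjR R P) (conjR R P).source := by
  have h1 : ContDiff ℝ ∞ (R : E d → E d) := R.contDiff
  exact h1.comp_contDiffOn (sP.comp h1.contDiffOn (fun x hx => hx))

theorem conjR_smooth' (R : E d ≃ₗᵢ[ℝ] E d) (P : OpenPartialHomeomorph (E d) (E d))
    (sP' : ContDiffOn ℝ ∞ P.symm P.target) :
    ContDiffOn ℝ ∞ (conjR R P).symm (conjR R P).target := by
  have h1 : ContDiff ℝ ∞ (R.symm : E d → E d) := R.symm.contDiff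
  exact h1.comp_contDiffOn (sP'.comp h1.contDiffOn (fun x hx => hx))

theorem measOfDensity_add {f g : E d → ℝ} (hf : Continuous f) (hf0 : ∀ x, 0 ≤ f x)
    (hg0 : ∀ x, 0 ≤ g x) :
    measOfDensity (fun x => f x + g x) = measOfDensity f + measOfDensity g := by
  unfold measOfDensity
  rw [← withDensity_add_left hf.measurable.ennreal_ofReal]
  congr 1
  funext x
  rw [Pi.add_apply, ENNReal.ofReal_add (hf0 x) (hg0 x)]

theorem exists_theta {s η : ℝ} {e : E d} {R : E d ≃ₗᵢ[ℝ] E d} (H : Hyp s η e R) (L : Loc s η e)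
    (φ : E d → ℝ) (hφ : ContDiff ℝ ∞ φ) (h0 : ∀ x, 0 ≤ φ x) (hK : tsupport φ ⊆ L.KA) :
    ∃ θ : E d → ℝ, ContDiff ℝ ∞ θ ∧ (∀ x, 0 ≤ θ x) ∧ HasCompactSupport θ ∧
      measOfDensity (fun x => θ x ^ 2) = (mkConf H L).mu (measOfDensity (fun x => φ x ^ 2)) := by
  have hKc : IsCompact L.KA := isCompact_closedBall _ _
  have hRs : ∀ x ∈ L.KA, R x ∈ closedBall (0 : E d) L.r := fun x hx => (L.mem_KA_R R).2 hx
  obtain ⟨ψ1, s1, p1, t1, c1, m1⟩ := push L.P L.sP L.sP' φ hφ h0 hKc hK L.hP (L.Y R true)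
    (L.measurable_Y R true) (fun x hx => L.Y_true R hx)
  obtain ⟨ψ2, s2, p2, t2, c2, m2⟩ := push L.Q L.sQ L.sQ' φ hφ h0 hKc hK L.hQ (L.Z R true)
    (L.measurable_Z R true) (fun x hx => L.Z_true R hx)
  obtain ⟨ψ3, s3, p3, t3, c3, m3⟩ := push (conjR R L.P) (conjR_smooth R L.P L.sP)
    (conjR_smooth' R L.P L.sP') φ hφ h0 hKc hK (fun x hx => L.hP (hRs x hx)) (L.Y R false)
    (L.measurable_Y R false) (fun x hx => L.Y_false R hx)
  obtain ⟨ψ4, s4, p4, t4, c4, m4⟩ := push (conjR R L.Q) (conjR_smooth R L.Q L.sQ)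
    (conjR_smooth' R L.Q L.sQ') φ hφ h0 hKc hK (fun x hx => L.hQ (hRs x hx)) (L.Z R false)
    (L.measurable_Z R false) (fun x hx => L.Z_false R hx)
  have c0 : HasCompactSupport φ := hKc.of_isClosed_subset (isClosed_tsupport φ) hK
  -- membership of the supports
  have a0 : ∀ x, φ x ≠ 0 → x ∈ L.KA := fun x hx => hK (subset_tsupport _ hx)
  have a1 : ∀ x, ψ1 x ≠ 0 → ∃ a ∈ L.KA, L.Y R true a = x := fun x hx => by
    obtain ⟨a, ha, h⟩ := t1 (subset_tsupport _ hx)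
    exact ⟨a, ha, by rw [L.Y_true R ha]; exact h⟩
  have a2 : ∀ x, ψ2 x ≠ 0 → ∃ a ∈ L.KA, L.Z R true a = x := fun x hx => by
    obtain ⟨a, ha, h⟩ := t2 (subset_tsupport _ hx)
    exact ⟨a, ha, by rw [L.Z_true R ha]; exact h⟩
  have a3 : ∀ x, ψ3 x ≠ 0 → ∃ a ∈ L.KA, L.Y R false a = x := fun x hx => by
    obtain ⟨a, ha, h⟩ := t3 (subset_tsupport _ hx)
    exact ⟨a, ha, by rw [L.Y_false R ha]; exact h⟩
  have a4 : ∀ x, ψ4 x ≠ 0 → ∃ a ∈ L.KA, L.Z R false a = x := fun x hx => by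
    obtain ⟨a, ha, h⟩ := t4 (subset_tsupport _ hx)
    exact ⟨a, ha, by rw [L.Z_false R ha]; exact h⟩
  -- vanishing products
  have v01 : ∀ x, φ x * ψ1 x = 0 := by
    intro x
    by_contra h
    obtain ⟨a, ha, hx⟩ := a1 x (right_ne_zero_of_mul h)
    exact L.dAY R H.hg H.he true ha (a0 x (left_ne_zero_of_mul h)) hx
  have v02 : ∀ x, φ x * ψ2 x = 0 := by
    intro x
    by_contra h
    obtain ⟨a, ha, hx⟩ := a2 x (right_ne_zero_of_mul h)
    exact L.dAZ R H.hg H.he true ha (a0 x (left_ne_zero_of_mul h)) hx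
  have v03 : ∀ x, φ x * ψ3 x = 0 := by
    intro x
    by_contra h
    obtain ⟨a, ha, hx⟩ := a3 x (right_ne_zero_of_mul h)
    exact L.dAY R H.hg H.he false ha (a0 x (left_ne_zero_of_mul h)) hx
  have v04 : ∀ x, φ x * ψ4 x = 0 := by
    intro x
    by_contra h
    obtain ⟨a, ha, hx⟩ := a4 x (right_ne_zero_of_mul h)
    exact L.dAZ R H.hg H.he false ha (a0 x (left_ne_zero_of_mul h)) hx
  have v12 : ∀ x, ψ1 x * ψ2 x = 0 := by
    intro x
    by_contra h
    obtain ⟨a, ha, hx⟩ := a1 x (left_ne_zero_of_mul h)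
    obtain ⟨b, hb, hx'⟩ := a2 x (right_ne_zero_of_mul h)
    exact L.dYZ R H.hg H.he H.ho true true ha hb (hx.trans hx'.symm)
  have v13 : ∀ x, ψ1 x * ψ3 x = 0 := by
    intro x
    by_contra h
    obtain ⟨a, ha, hx⟩ := a1 x (left_ne_zero_of_mul h)
    obtain ⟨b, hb, hx'⟩ := a3 x (right_ne_zero_of_mul h)
    exact L.dYY R H.hg H.he H.ho ha hb (hx.trans hx'.symm)
  have v14 : ∀ x, ψ1 x * ψ4 x = 0 := by
    intro x
    by_contra h
    obtain ⟨a, ha, hx⟩ := a1 x (left_ne_zero_of_mul h)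
    obtain ⟨b, hb, hx'⟩ := a4 x (right_ne_zero_of_mul h)
    exact L.dYZ R H.hg H.he H.ho true false ha hb (hx.trans hx'.symm)
  have v23 : ∀ x, ψ2 x * ψ3 x = 0 := by
    intro x
    by_contra h
    obtain ⟨a, ha, hx⟩ := a2 x (left_ne_zero_of_mul h)
    obtain ⟨b, hb, hx'⟩ := a3 x (right_ne_zero_of_mul h)
    exact L.dYZ R H.hg H.he H.ho false true hb ha (hx'.trans hx.symm)
  have v24 : ∀ x, ψ2 x * ψ4 x = 0 := by
    intro x
    by_contra h
    obtain ⟨a, ha, hx⟩ := a2 x (left_ne_zero_of_mul h)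
    obtain ⟨b, hb, hx'⟩ := a4 x (right_ne_zero_of_mul h)
    exact L.dZZ R H.hg H.he H.ho ha hb (hx.trans hx'.symm)
  have v34 : ∀ x, ψ3 x * ψ4 x = 0 := by
    intro x
    by_contra h
    obtain ⟨a, ha, hx⟩ := a3 x (left_ne_zero_of_mul h)
    obtain ⟨b, hb, hx'⟩ := a4 x (right_ne_zero_of_mul h)
    exact L.dYZ R H.hg H.he H.ho false false ha hb (hx.trans hx'.symm)
  have hq : Real.sqrt 2 ^ 2 = 2 := Real.sq_sqrt (by norm_num)
  refine ⟨fun x => Real.sqrt 2 * φ x + (ψ1 x + (ψ2 x + (ψ3 x + ψ4 x))), ?_, ?_, ?_, ?_⟩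
  · exact (contDiff_const.mul hφ).add (s1.add (s2.add (s3.add s4)))
  · intro x
    have := h0 x
    have := p1 x
    have := p2 x
    have := p3 x
    have := p4 x
    positivity
  · exact (c0.mul_left (f := fun _ => Real.sqrt 2)).add (c1.add (c2.add (c3.add c4)))
  · have hsq : (fun x => (Real.sqrt 2 * φ x + (ψ1 x + (ψ2 x + (ψ3 x + ψ4 x)))) ^ 2) =
        fun x => (φ x ^ 2 + φ x ^ 2) + ((ψ1 x ^ 2 + ψ2 x ^ 2) + (ψ3 x ^ 2 + ψ4 x ^ 2)) := by
      funext x
      linear_combination (2 * Real.sqrt 2) * v01 x + (2 * Real.sqrt 2) * v02 x +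
        (2 * Real.sqrt 2) * v03 x + (2 * Real.sqrt 2) * v04 x + 2 * v12 x + 2 * v13 x +
        2 * v14 x + 2 * v23 x + 2 * v24 x + 2 * v34 x + φ x ^ 2 * hq
    rw [hsq]
    have k0 : Continuous fun x => φ x ^ 2 := hφ.continuous.pow 2
    have k1 : Continuous fun x => ψ1 x ^ 2 := s1.continuous.pow 2
    have k2 : Continuous fun x => ψ2 x ^ 2 := s2.continuous.pow 2
    have k3 : Continuous fun x => ψ3 x ^ 2 := s3.continuous.pow 2
    rw [measOfDensity_add (f := fun x => φ x ^ 2 + φ x ^ 2)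
        (g := fun x => (ψ1 x ^ 2 + ψ2 x ^ 2) + (ψ3 x ^ 2 + ψ4 x ^ 2)) (k0.add k0)
        (fun x => by positivity) (fun x => by positivity),
      measOfDensity_add (f := fun x => φ x ^ 2) (g := fun x => φ x ^ 2) k0
        (fun x => by positivity) (fun x => by positivity),
      measOfDensity_add (f := fun x => ψ1 x ^ 2 + ψ2 x ^ 2) (g := fun x => ψ3 x ^ 2 + ψ4 x ^ 2)
        (k1.add k2) (fun x => by positivity) (fun x => by positivity),
      measOfDensity_add (f := fun x => ψ1 x ^ 2) (g := fun x => ψ2 x ^ 2) k1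
        (fun x => by positivity) (fun x => by positivity),
      measOfDensity_add (f := fun x => ψ3 x ^ 2) (g := fun x => ψ4 x ^ 2) k3
        (fun x => by positivity) (fun x => by positivity), ← m1, ← m2, ← m3, ← m4]
    rfl

end Crest.Agent.R130
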