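import Crest.Agent.R130.Defs

/-!
# Row 130, piece ETA: small `η` satisfies `Good s η`

All conditions hold for `η → 0+`: `(2η)^(-s) → ∞`, `3η < 3·3^(-s)`, `2(1+2η)^(-s) + (√2+2η)^(-s) → 2 + 2^(-s/2) > 2 + 2^(-s)`,
`(1-2η)^(-s-2) → 1 < 2`.  Use `Filter.Eventually` in `𝓝[>] 0`.
-/

set_option autoImplicit false
open Metric Set

namespace Crest.Agent.R130

theorem exists_good {s : ℝ} (hs : 0 < s) : ∃ η : ℝ, Good s η := by sorry

end Crest.Agent.R130
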