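import Crest.Agent.R130.Defs

/-!
# Row 130, piece GEO: position of the five blobs, values of the potential `U`
-/

set_option autoImplicit false
open Metric Set
open scoped ContDiff

namespace Crest.Agent.R130

namespace Loc

variable {d : ℕ} {s η : ℝ} {e : E d} (L : Loc s η e) (R : E d ≃ₗᵢ[ℝ] E d)

theorem mem_KA_R {x : E d} : R x ∈ L.KA ↔ x ∈ L.KA := by
  unfold KA
  rw [mem_closedBall_zero_iff, mem_closedBall_zero_iff, R.norm_map]

theorem Y_true {a : E d} (ha : a ∈ L.KA) : L.Y R true a = L.P a := by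
  simp [Y, Pm, ha]

theorem Y_false {a : E d} (ha : a ∈ L.KA) : L.Y R false a = R (L.P (R a)) := by
  have ha' : R a ∈ L.KA := (L.mem_KA_R R).2 ha
  simp [Y, Pm, ha']

theorem Z_true {a : E d} (ha : a ∈ L.KA) : L.Z R true a = L.Q a := by
  simp [Z, Qm, ha]

theorem Z_false {a : E d} (ha : a ∈ L.KA) : L.Z R false a = R (L.Q (R a)) := by
  have ha' : R a ∈ L.KA := (L.mem_KA_R R).2 ha
  simp [Z, Qm, ha']

theorem norm_A {a : E d} (ha : a ∈ L.KA) : ‖a‖ ≤ η := by
  have h : ‖a‖ ≤ L.r := mem_closedBall_zero_iff.1 ha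
  exact h.trans L.hrη

theorem norm_YT {a : E d} (ha : a ∈ L.KA) : ‖L.Y R true a - e‖ ≤ η := by
  rw [L.Y_true R ha]
  exact L.nearP a ha

theorem norm_YF {a : E d} (ha : a ∈ L.KA) : ‖L.Y R false a - R e‖ ≤ η := by
  rw [L.Y_false R ha, ← map_sub, R.norm_map]
  exact L.nearP _ ((L.mem_KA_R R).2 ha)

theorem norm_ZT {a : E d} (ha : a ∈ L.KA) : ‖L.Z R true a + e‖ ≤ η := by
  rw [L.Z_true R ha]
  exact L.nearQ a ha

theorem norm_ZF {a : E d} (ha : a ∈ L.KA) : ‖L.Z R false a + R e‖ ≤ η := by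
  rw [L.Z_false R ha, ← map_add, R.norm_map]
  exact L.nearQ _ ((L.mem_KA_R R).2 ha)

/-- distances of the centres -/
theorem norm_e_sub (he : ‖e‖ = 1) (ho : inner ℝ e (R e) = 0) :
    ‖e - R e‖ = Real.sqrt 2 ∧ ‖e + R e‖ = Real.sqrt 2 := by
  have h1 : ‖R e‖ = 1 := by rw [R.norm_map, he]
  constructor
  · rw [eq_comm, Real.sqrt_eq_iff_mul_self_eq (by norm_num) (norm_nonneg _), ← sq,
      norm_sub_sq_real, ho, he, h1]
    norm_num
  · rw [eq_comm, Real.sqrt_eq_iff_mul_self_eq (by norm_num) (norm_nonneg _), ← sq,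
      norm_add_sq_real, ho, he, h1]
    norm_num

theorem norm_Y_ge (he : ‖e‖ = 1) (i : Bool) {a : E d} (ha : a ∈ L.KA) :
    1 - η ≤ ‖L.Y R i a‖ := by
  cases i
  · have h := L.norm_YF R ha
    have h1 : ‖R e‖ = 1 := by rw [R.norm_map, he]
    have h2 := norm_sub_norm_le (R e) (L.Y R false a)
    rw [norm_sub_rev] at h2
    linarith
  · have h := L.norm_YT R ha
    have h2 := norm_sub_norm_le e (L.Y R true a)
    rw [norm_sub_rev] at h2
    linarith

theorem norm_Z_ge (he : ‖e‖ = 1) (i : Bool) {a : E d} (ha : a ∈ L.KA) :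
    1 - η ≤ ‖L.Z R i a‖ := by
  cases i
  · have h := L.norm_ZF R ha
    have h1 : ‖-R e‖ = 1 := by rw [norm_neg, R.norm_map, he]
    have h2 := norm_sub_norm_le (-R e) (L.Z R false a)
    have h3 : ‖-R e - L.Z R false a‖ = ‖L.Z R false a + R e‖ := by
      rw [← norm_neg]; congr 1; abel
    linarith
  · have h := L.norm_ZT R ha
    have h1 : ‖-e‖ = 1 := by rw [norm_neg, he]
    have h2 := norm_sub_norm_le (-e) (L.Z R true a)
    have h3 : ‖-e - L.Z R true a‖ = ‖L.Z R true a + e‖ := by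
      rw [← norm_neg]; congr 1; abel
    linarith

theorem dAY (hg : Good s η) (he : ‖e‖ = 1) (i : Bool) {a b : E d} (ha : a ∈ L.KA)
    (hb : b ∈ L.KA) : L.Y R i a ≠ b := by
  intro h
  have h1 := L.norm_Y_ge R he i ha
  have h2 := L.norm_A hb
  rw [h] at h1
  have := hg.le
  linarith

theorem dAZ (hg : Good s η) (he : ‖e‖ = 1) (i : Bool) {a b : E d} (ha : a ∈ L.KA)
    (hb : b ∈ L.KA) : L.Z R i a ≠ b := by
  intro h
  have h1 := L.norm_Z_ge R he i ha
  have h2 := L.norm_A hb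
  rw [h] at h1
  have := hg.le
  linarith

theorem geo_far (hg : Good s η) {p c₁ c₂ : E d} (h₁ : ‖p - c₁‖ ≤ η) (h₂ : ‖p - c₂‖ ≤ η)
    (hc : 1 ≤ ‖c₁ - c₂‖) : False := by
  have h3 : ‖c₁ - c₂‖ ≤ ‖p - c₂‖ + ‖p - c₁‖ := by
    have : c₁ - c₂ = (p - c₂) - (p - c₁) := by abel
    rw [this]
    exact norm_sub_le _ _
  have := hg.le
  linarith

theorem one_le_sqrt_two : (1 : ℝ) ≤ Real.sqrt 2 := by
  rw [Real.one_le_sqrt]; norm_num

theorem dYZ (hg : Good s η) (he : ‖e‖ = 1) (ho : inner ℝ e (R e) = 0) (i j : Bool) {a b : E d}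
    (ha : a ∈ L.KA) (hb : b ∈ L.KA) : L.Y R i a ≠ L.Z R j b := by
  intro h
  have hs := norm_e_sub R he ho
  have h1 : ‖R e‖ = 1 := by rw [R.norm_map, he]
  cases i <;> cases j
  · have h2 := L.norm_YF R ha
    have h3 := L.norm_ZF R hb
    rw [← h, ← sub_neg_eq_add] at h3
    refine geo_far hg h2 h3 ?_
    have : R e - -R e = (2 : ℝ) • R e := by rw [two_smul]; abel
    rw [this, norm_smul, h1]
    norm_num
  · have h2 := L.norm_YF R ha
    have h3 := L.norm_ZT R hb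
    rw [← h, ← sub_neg_eq_add] at h3
    refine geo_far hg h2 h3 ?_
    have : R e - -e = e + R e := by abel
    rw [this, hs.2]
    exact one_le_sqrt_two
  · have h2 := L.norm_YT R ha
    have h3 := L.norm_ZF R hb
    rw [← h, ← sub_neg_eq_add] at h3
    refine geo_far hg h2 h3 ?_
    rw [sub_neg_eq_add, hs.2]
    exact one_le_sqrt_two
  · have h2 := L.norm_YT R ha
    have h3 := L.norm_ZT R hb
    rw [← h, ← sub_neg_eq_add] at h3
    refine geo_far hg h2 h3 ?_
    have : e - -e = (2 : ℝ) • e := by rw [two_smul]; abel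
    rw [this, norm_smul, he]
    norm_num

theorem dYY (hg : Good s η) (he : ‖e‖ = 1) (ho : inner ℝ e (R e) = 0) {a b : E d}
    (ha : a ∈ L.KA) (hb : b ∈ L.KA) : L.Y R true a ≠ L.Y R false b := by
  intro h
  have hs := norm_e_sub R he ho
  have h2 := L.norm_YT R ha
  have h3 := L.norm_YF R hb
  rw [← h] at h3
  refine geo_far hg h2 h3 ?_
  rw [hs.1]
  exact one_le_sqrt_two

theorem dZZ (hg : Good s η) (he : ‖e‖ = 1) (ho : inner ℝ e (R e) = 0) {a b : E d}
    (ha : a ∈ L.KA) (hb : b ∈ L.KA) : L.Z R true a ≠ L.Z R false b := by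
  intro h
  have hs := norm_e_sub R he ho
  have h2 := L.norm_ZT R ha
  have h3 := L.norm_ZF R hb
  rw [← h, ← sub_neg_eq_add] at h3
  rw [← sub_neg_eq_add] at h2
  refine geo_far hg h2 h3 ?_
  have : -e - -R e = -(e - R e) := by abel
  rw [this, norm_neg, hs.1]
  exact one_le_sqrt_two

theorem injY (hR : ∀ x, R (R x) = x) (i : Bool) : InjOn (L.Y R i) L.KA := by
  intro a ha b hb h
  cases i
  · rw [L.Y_false R ha, L.Y_false R hb] at h
    have h1 := R.injective h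
    have h2 := L.P.injOn (L.hP ((L.mem_KA_R R).2 ha)) (L.hP ((L.mem_KA_R R).2 hb)) h1
    exact R.injective h2
  · rw [L.Y_true R ha, L.Y_true R hb] at h
    exact L.P.injOn (L.hP ha) (L.hP hb) h

theorem injZ (hR : ∀ x, R (R x) = x) (i : Bool) : InjOn (L.Z R i) L.KA := by
  intro a ha b hb h
  cases i
  · rw [L.Z_false R ha, L.Z_false R hb] at h
    have h1 := R.injective h
    have h2 := L.Q.injOn (L.hQ ((L.mem_KA_R R).2 ha)) (L.hQ ((L.mem_KA_R R).2 hb)) h1
    exact R.injective h2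
  · rw [L.Z_true R ha, L.Z_true R hb] at h
    exact L.Q.injOn (L.hQ ha) (L.hQ hb) h

end Loc

end Crest.Agent.R130
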