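import Crest.Agent.R130.Geo

/-!
# Row 130, piece GEOU: values and bounds of the potential `U`, the real and the extended cost
-/

set_option autoImplicit false
open Metric Set
open scoped ContDiff

namespace Crest.Agent.R130

namespace Loc

variable {d : ℕ} {s η : ℝ} {e : E d} (L : Loc s η e) (R : E d ≃ₗᵢ[ℝ] E d)

theorem U_A {a : E d} (ha : a ∈ L.KA) : L.U R a = uA s a := by sorry

theorem U_YT (hg : Good s η) (he : ‖e‖ = 1) {a : E d} (ha : a ∈ L.KA) :
    L.U R (L.Y R true a) = uB s e (L.P a) := by sorry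

theorem U_ZT (hg : Good s η) (he : ‖e‖ = 1) (ho : inner ℝ e (R e) = 0) {a : E d}
    (ha : a ∈ L.KA) :
    L.U R (L.Z R true a) = cr s a (L.P a) (L.Q a) - uA s a - uB s e (L.P a) := by sorry

theorem U_YF (hg : Good s η) (he : ‖e‖ = 1) (hR : ∀ x, R (R x) = x) (ho : inner ℝ e (R e) = 0)
    {a : E d} (ha : a ∈ L.KA) :
    L.U R (L.Y R false a) = uB s e (L.P (R a)) := by sorry

theorem U_ZF (hg : Good s η) (he : ‖e‖ = 1) (hR : ∀ x, R (R x) = x) (ho : inner ℝ e (R e) = 0)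
    {a : E d} (ha : a ∈ L.KA) :
    L.U R (L.Z R false a) =
      cr s (R a) (L.P (R a)) (L.Q (R a)) - uA s (R a) - uB s e (L.P (R a)) := by sorry

/-- the contact triples: the potentials add up to the cost -/
theorem U_sum (hg : Good s η) (he : ‖e‖ = 1) (hR : ∀ x, R (R x) = x) (ho : inner ℝ e (R e) = 0)
    (i : Bool) {a : E d} (ha : a ∈ L.KA) :
    L.U R a + L.U R (L.Y R i a) + L.U R (L.Z R i a) = cr s a (L.Y R i a) (L.Z R i a) := by sorry

/-- global bounds of the potential -/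
theorem U_bound (hs : 0 < s) (hg : Good s η) (hR : ∀ x, R (R x) = x) (x : E d) :
    -1 ≤ L.U R x ∧ L.U R x ≤ c0 s + 1 := by sorry

/-- sharper bounds on the blobs -/
theorem U_le_A {a : E d} (ha : a ∈ L.KA) : L.U R a ≤ c0 s + η := by sorry

theorem U_le_Y (hg : Good s η) (he : ‖e‖ = 1) (hR : ∀ x, R (R x) = x)
    (ho : inner ℝ e (R e) = 0) (i : Bool) {a : E d} (ha : a ∈ L.KA) :
    L.U R (L.Y R i a) ≤ η := by sorry

theorem U_le_Z (hg : Good s η) (he : ‖e‖ = 1) (hR : ∀ x, R (R x) = x)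
    (ho : inner ℝ e (R e) = 0) (i : Bool) {a : E d} (ha : a ∈ L.KA) :
    L.U R (L.Z R i a) ≤ η := by sorry

end Loc

/-- the real and the extended cost -/
theorem tripleCost_eq {d : ℕ} {s : ℝ} (hs : 0 < s) {x y z : E d} (hxy : x ≠ y) (hxz : x ≠ z)
    (hyz : y ≠ z) :
    Crest.AnalysisR.OT.tripleCost s (x, y, z) = ENNReal.ofReal (cr s x y z) := by sorry

end Crest.Agent.R130
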