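import Mathlib

/-!
# Row 130, piece IFT: smooth inverse function theorem on a fixed neighbourhood

`hf.contDiffAt.toOpenPartialHomeomorph f h (by simp)` gives a local inverse; restrict it (`OpenPartialHomeomorph.restrOpen`
or `restr`) to the open set of `x ∈ U` where `fderiv ℝ f x` is invertible (`ContinuousLinearEquiv.isOpen`,
continuity of `fderiv ℝ f` on `U`); then `OpenPartialHomeomorph.contDiffAt_symm` at every point of the target.
-/

set_option autoImplicit false
open Metric Set
open scoped ContDiff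

namespace Crest.Agent.R130

theorem ift {F G : Type*} [NormedAddCommGroup F] [NormedSpace ℝ F] [CompleteSpace F]
    [NormedAddCommGroup G] [NormedSpace ℝ G] [CompleteSpace G] (f : F → G) (U : Set F)
    (hU : IsOpen U) (a : F) (ha : a ∈ U) (hf : ContDiffOn ℝ ∞ f U) (f' : F ≃L[ℝ] G)
    (h : HasFDerivAt f (f' : F →L[ℝ] G) a) :
    ∃ P : OpenPartialHomeomorph F G, a ∈ P.source ∧ P.source ⊆ U ∧ (∀ x, P x = f x) ∧
      ContDiffOn ℝ ∞ P.symm P.target := by
  have hca : ContDiffAt ℝ ∞ f a := hf.contDiffAt (hU.mem_nhds ha)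
  have hcont : ContinuousOn (fderiv ℝ f) U := hf.continuousOn_fderiv_of_isOpen hU (by simp)
  have hW : IsOpen (U ∩ fderiv ℝ f ⁻¹' (range ((↑) : (F ≃L[ℝ] G) → F →L[ℝ] G))) :=
    hcont.isOpen_inter_preimage hU ContinuousLinearEquiv.isOpen
  let P0 := hca.toOpenPartialHomeomorph f h (by simp)
  have hP0 : ∀ x, P0 x = f x := fun x => rfl
  refine ⟨P0.restrOpen _ hW, ?_, ?_, ?_, ?_⟩
  · refine ⟨hca.mem_toOpenPartialHomeomorph_source h (by simp), ha, ?_⟩
    exact ⟨f', h.fderiv.symm⟩
  · intro x hx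
    exact hx.2.1
  · intro x
    rfl
  · intro y hy
    have hx : (P0.restrOpen _ hW).symm y ∈ (P0.restrOpen _ hW).source :=
      (P0.restrOpen _ hW).map_target hy
    obtain ⟨g', hg'⟩ := hx.2.2
    have hcx : ContDiffAt ℝ ∞ f ((P0.restrOpen _ hW).symm y) :=
      hf.contDiffAt (hU.mem_nhds hx.2.1)
    have hd : HasFDerivAt f (g' : F →L[ℝ] G) ((P0.restrOpen _ hW).symm y) := by
      rw [hg']
      exact (hcx.differentiableAt (by simp)).hasFDerivAt
    exact ((P0.restrOpen _ hW).contDiffAt_symm hy hd hcx).contDiffWithinAt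

end Crest.Agent.R130
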