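import Crest.Agent.R130.IneqT

/-!
# Row 130, piece INEQ2 (all the cases, using `ineq_true`, `ineq_false`): dual feasibility and the contact set

For `x y z ∈ K` let `S x y z := (v x + v y + v z ≤ CC (x,y,z)) ∧ (CC (x,y,z) ≤ v x + v y + v z → Contact x y z)`;
`S` is invariant under permutations.  By `vv_add`, `CC_eq` (for distinct points; if two points coincide `CC = ⊤`), `S` follows from
the strict inequality `U x + U y + U z < cr s x y z`, in the cases
* two of the points in `A`: `‖x - y‖ ≤ 2η`, `Good.close`, `U ≤ c0 + η`;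
* no point in `A`: all norms `≤ 1 + η`, `U ≤ η`, distances `≤ 2 + 2η ≤ 3`, `Good.noA`;
* `x ∈ A`, `y`, `z` in outer blobs whose centres are at distance `≤ √2`: `Good.side`
  (`‖x-y‖, ‖x-z‖ ≤ 1+2η`, `‖y-z‖ ≤ √2+2η`);
* `x ∈ A`, `y = Y true b`, `z = Z true c` (antipodal blobs): `critical_min` with `x₀ = c`, `y₀ = P c`, `z₀ = Q c`
  (`λ ≤ 2` from `Good.lam`, since all distances are `≥ 1 - 2η`), equality only for `x = c`, `y = P c`;
* the same for `Y false`, `Z false`: apply the isometry `R` (`cr s (R x) (R y) (R z) = cr s x y z`, `uA s (R x) = uA s x`).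
-/

set_option autoImplicit false
open MeasureTheory Metric Set
open scoped ContDiff ENNReal
open Crest.AnalysisR.OT

namespace Crest.Agent.R130

namespace Conf

variable {X : Type*} [MeasurableSpace X] {C : X × X × X → ℝ≥0∞} (F : Conf C)

/-- dual feasibility and contact at a triple -/
def SS (x y z : X) : Prop :=
  (F.v x + F.v y + F.v z ≤ C (x, y, z)) ∧ (C (x, y, z) ≤ F.v x + F.v y + F.v z → F.Contact x y z)

theorem Contact.swap12 {F : Conf C} {x y z : X} (h : F.Contact x y z) : F.Contact y x z := by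
  obtain ⟨i, a, ha, h⟩ := h
  exact ⟨i, a, ha, by tauto⟩

theorem Contact.swap23 {F : Conf C} {x y z : X} (h : F.Contact x y z) : F.Contact x z y := by
  obtain ⟨i, a, ha, h⟩ := h
  exact ⟨i, a, ha, by tauto⟩

theorem SS.swap12 {F : Conf C} {x y z : X} (h : F.SS x y z) : F.SS y x z := by
  have e : F.v y + F.v x + F.v z = F.v x + F.v y + F.v z := by ring
  refine ⟨?_, fun h' => ?_⟩
  · rw [e, ← F.symm12]; exact h.1
  · rw [e, ← F.symm12] at h'; exact (h.2 h').swap12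

theorem SS.swap23 {F : Conf C} {x y z : X} (h : F.SS x y z) : F.SS x z y := by
  have e : F.v x + F.v z + F.v y = F.v x + F.v y + F.v z := by ring
  refine ⟨?_, fun h' => ?_⟩
  · rw [e, ← F.symm23]; exact h.1
  · rw [e, ← F.symm23] at h'; exact (h.2 h').swap23

end Conf

variable {d : ℕ}

theorem pairCost_self {s : ℝ} (hs : 0 < s) (x : E d) : pairCost s x x = ⊤ := by
  unfold pairCost
  rw [sub_self, norm_zero, ENNReal.ofReal_zero, ENNReal.zero_rpow_of_neg (by linarith)]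

section
variable {s η : ℝ} {e : E d} {R : E d ≃ₗᵢ[ℝ] E d} (H : Hyp s η e R) (L : Loc s η e)
include H

theorem SS_top {x y z : E d} (h : CC s (x, y, z) = ⊤) : (mkConf H L).SS x y z := by
  have hf : (mkConf H L).v x + (mkConf H L).v y + (mkConf H L).v z < ⊤ := by
    show vv L R x + vv L R y + vv L R z < ⊤
    rw [vv_add H L]
    exact ENNReal.ofReal_lt_top
  refine ⟨?_, fun h' => ?_⟩
  · rw [h]; exact le_top
  · rw [h] at h'
    exact absurd (lt_of_le_of_lt h' hf) (lt_irrefl _)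

theorem SS_of {x y z : E d} (h : x ≠ y → x ≠ z → y ≠ z →
    L.U R x + L.U R y + L.U R z ≤ cr s x y z ∧
      (cr s x y z ≤ L.U R x + L.U R y + L.U R z → (mkConf H L).Contact x y z)) :
    (mkConf H L).SS x y z := by
  by_cases hxy : x = y
  · subst hxy
    refine SS_top H L ?_
    unfold CC tripleCost
    simp [pairCost_self H.hs]
  by_cases hxz : x = z
  · subst hxz
    refine SS_top H L ?_
    unfold CC tripleCost
    simp [pairCost_self H.hs]
  by_cases hyz : y = z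
  · subst hyz
    refine SS_top H L ?_
    unfold CC tripleCost
    simp [pairCost_self H.hs]
  obtain ⟨h1, h2⟩ := h hxy hxz hyz
  have h0 : 0 ≤ cr s x y z := by
    unfold cr; positivity
  refine ⟨?_, fun h' => h2 ?_⟩
  · show vv L R x + vv L R y + vv L R z ≤ CC s (x, y, z)
    rw [vv_add H L, CC_eq H.hs hxy hxz hyz]
    exact ENNReal.ofReal_le_ofReal (by linarith)
  · have h3 : CC s (x, y, z) ≤ vv L R x + vv L R y + vv L R z := h'
    rw [vv_add H L, CC_eq H.hs hxy hxz hyz, ENNReal.ofReal_le_ofReal_iff'] at h3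
    rcases h3 with h3 | h3 <;> linarith

theorem SS_of_lt {x y z : E d} (h : x ≠ y → x ≠ z → y ≠ z →
    L.U R x + L.U R y + L.U R z < cr s x y z) : (mkConf H L).SS x y z :=
  SS_of H L fun h1 h2 h3 => ⟨(h h1 h2 h3).le, fun h' => absurd (h h1 h2 h3) (not_lt.2 h')⟩

omit H in
theorem rpow_anti {s a b : ℝ} (hs : 0 < s) (ha : 0 < a) (hab : a ≤ b) : b ^ (-s) ≤ a ^ (-s) :=
  Real.rpow_le_rpow_of_nonpos ha hab (by linarith)

theorem SS_twoA {x y z : E d} (hx : x ∈ L.KA) (hy : y ∈ L.KA) (hz : L.U R z ≤ c0 s + η) :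
    (mkConf H L).SS x y z := by
  refine SS_of_lt H L fun hxy hxz hyz => ?_
  have h1 := L.U_le_A R hx
  have h2 := L.U_le_A R hy
  have h3 : ‖x - y‖ ≤ 2 * η := by
    have := norm_sub_le x y
    have := L.norm_A hx
    have := L.norm_A hy
    linarith
  have h4 := rpow_anti H.hs (norm_pos_iff.2 (sub_ne_zero.2 hxy)) h3
  have h5 := H.hg.close
  have h6 : 0 ≤ ‖x - z‖ ^ (-s) := by positivity
  have h7 : 0 ≤ ‖y - z‖ ^ (-s) := by positivity
  unfold cr
  linarith

theorem SS_noA {x y z : E d} (hx : ‖x‖ ≤ 1 + η ∧ L.U R x ≤ η) (hy : ‖y‖ ≤ 1 + η ∧ L.U R y ≤ η)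
    (hz : ‖z‖ ≤ 1 + η ∧ L.U R z ≤ η) : (mkConf H L).SS x y z := by
  refine SS_of_lt H L fun hxy hxz hyz => ?_
  have hη := H.hg.le
  have key : ∀ {a b : E d}, a ≠ b → ‖a‖ ≤ 1 + η → ‖b‖ ≤ 1 + η → (3 : ℝ) ^ (-s) ≤ ‖a - b‖ ^ (-s) := by
    intro a b hab ha hb
    refine rpow_anti H.hs (norm_pos_iff.2 (sub_ne_zero.2 hab)) ?_
    have := norm_sub_le a b
    linarith
  have h1 := key hxy hx.1 hy.1
  have h2 := key hxz hx.1 hz.1
  have h3 := key hyz hy.1 hz.1
  have h4 := H.hg.noA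
  unfold cr
  linarith [hx.2, hy.2, hz.2]

theorem SS_side {x y z p q : E d} (hx : x ∈ L.KA) (hy : ‖y - p‖ ≤ η) (hz : ‖z - q‖ ≤ η)
    (hp : ‖p‖ = 1) (hq : ‖q‖ = 1) (hpq : ‖p - q‖ ≤ Real.sqrt 2) (uy : L.U R y ≤ η)
    (uz : L.U R z ≤ η) : (mkConf H L).SS x y z := by
  refine SS_of_lt H L fun hxy hxz hyz => ?_
  have h0 := L.norm_A hx
  have h1 : ‖x - y‖ ≤ 1 + 2 * η := by
    have e1 : x - y = x - (y - p) - p := by abel
    have := norm_sub_le (x - (y - p)) p
    have := norm_sub_le x (y - p)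
    rw [e1]
    linarith
  have h2 : ‖x - z‖ ≤ 1 + 2 * η := by
    have e1 : x - z = x - (z - q) - q := by abel
    have := norm_sub_le (x - (z - q)) q
    have := norm_sub_le x (z - q)
    rw [e1]
    linarith
  have h3 : ‖y - z‖ ≤ Real.sqrt 2 + 2 * η := by
    have e1 : y - z = (y - p) + (p - q) - (z - q) := by abel
    have := norm_sub_le ((y - p) + (p - q)) (z - q)
    have := norm_add_le (y - p) (p - q)
    rw [e1]
    linarith
  have h4 := rpow_anti H.hs (norm_pos_iff.2 (sub_ne_zero.2 hxy)) h1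
  have h5 := rpow_anti H.hs (norm_pos_iff.2 (sub_ne_zero.2 hxz)) h2
  have h6 := rpow_anti H.hs (norm_pos_iff.2 (sub_ne_zero.2 hyz)) h3
  have h7 := H.hg.side
  have h8 := L.U_le_A R hx
  unfold cr
  linarith

theorem SS_T {x b c : E d} (hx : x ∈ L.KA) (hb : b ∈ L.KA) (hc : c ∈ L.KA) :
    (mkConf H L).SS x (L.Y R true b) (L.Z R true c) := by
  refine SS_of H L fun _ _ _ => ?_
  obtain ⟨h1, h2⟩ := ineq_true H L hx hb hc
  refine ⟨h1, fun h => ?_⟩
  obtain ⟨h3, h4⟩ := h2 h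
  refine ⟨true, c, hc, Or.inl ⟨h3, h4, rfl⟩⟩

theorem SS_F {x b c : E d} (hx : x ∈ L.KA) (hb : b ∈ L.KA) (hc : c ∈ L.KA) :
    (mkConf H L).SS x (L.Y R false b) (L.Z R false c) := by
  refine SS_of H L fun _ _ _ => ?_
  obtain ⟨h1, h2⟩ := ineq_false H L hx hb hc
  refine ⟨h1, fun h => ?_⟩
  obtain ⟨h3, h4⟩ := h2 h
  refine ⟨false, c, hc, Or.inl ⟨h3, h4, rfl⟩⟩

/-- the four outer blobs -/
def Outer {s η : ℝ} {e : E d} (L : Loc s η e) (R : E d ≃ₗᵢ[ℝ] E d) (x : E d) : Prop :=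
  ∃ i : Bool, (∃ a ∈ L.KA, x = L.Y R i a) ∨ (∃ a ∈ L.KA, x = L.Z R i a)

theorem outer_bd {x : E d} (h : Outer L R x) : ‖x‖ ≤ 1 + η ∧ L.U R x ≤ η := by
  have key : ∀ {p y : E d}, ‖p‖ = 1 → ‖y - p‖ ≤ η → ‖y‖ ≤ 1 + η := by
    intro p y hp hy
    have := norm_sub_norm_le y p
    linarith
  have hRe : ‖R e‖ = 1 := by rw [R.norm_map, H.he]
  obtain ⟨i, h | h⟩ := h
  · obtain ⟨a, ha, rfl⟩ := h
    refine ⟨?_, L.U_le_Y R H.hg H.he H.hR H.ho i ha⟩
    cases i
    · exact key hRe (L.norm_YF R ha)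
    · exact key H.he (L.norm_YT R ha)
  · obtain ⟨a, ha, rfl⟩ := h
    refine ⟨?_, L.U_le_Z R H.hg H.he H.hR H.ho i ha⟩
    cases i
    · exact key (p := -(R e)) (by rw [norm_neg, hRe])
        (by rw [sub_neg_eq_add]; exact L.norm_ZF R ha)
    · exact key (p := -e) (by rw [norm_neg, H.he])
        (by rw [sub_neg_eq_add]; exact L.norm_ZT R ha)

theorem SS_oneA {x y z : E d} (hx : x ∈ L.KA) (hy : Outer L R y) (hz : Outer L R z) :
    (mkConf H L).SS x y z := by
  have hRe : ‖R e‖ = 1 := by rw [R.norm_map, H.he]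
  have nRe : ‖-(R e)‖ = 1 := by rw [norm_neg, hRe]
  have ne : ‖-e‖ = 1 := by rw [norm_neg, H.he]
  have s2 : (0 : ℝ) ≤ Real.sqrt 2 := Real.sqrt_nonneg 2
  obtain ⟨d1, d2⟩ := Loc.norm_e_sub R H.he H.ho
  have uy := (outer_bd H L hy).2
  have uz := (outer_bd H L hz).2
  have ZT : ∀ {a : E d}, a ∈ L.KA → ‖L.Z R true a - -e‖ ≤ η := fun ha => by
    rw [sub_neg_eq_add]; exact L.norm_ZT R ha
  have ZF : ∀ {a : E d}, a ∈ L.KA → ‖L.Z R false a - -(R e)‖ ≤ η := fun ha => by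
    rw [sub_neg_eq_add]; exact L.norm_ZF R ha
  obtain ⟨i, hy | hy⟩ := hy <;> obtain ⟨j, hz | hz⟩ := hz <;>
    obtain ⟨b, hb, rfl⟩ := hy <;> obtain ⟨c, hc, rfl⟩ := hz <;> cases i <;> cases j
  · exact SS_side H L hx (L.norm_YF R hb) (L.norm_YF R hc) hRe hRe (by simp [s2]) uy uz
  · exact SS_side H L hx (L.norm_YF R hb) (L.norm_YT R hc) hRe H.he
      (by rw [norm_sub_rev, d1]) uy uz
  · exact SS_side H L hx (L.norm_YT R hb) (L.norm_YF R hc) H.he hRe (by rw [d1]) uy uz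
  · exact SS_side H L hx (L.norm_YT R hb) (L.norm_YT R hc) H.he H.he (by simp [s2]) uy uz
  · exact SS_F H L hx hb hc
  · exact SS_side H L hx (L.norm_YF R hb) (ZT hc) hRe ne
      (by rw [sub_neg_eq_add, add_comm, d2]) uy uz
  · exact SS_side H L hx (L.norm_YT R hb) (ZF hc) H.he nRe
      (by rw [sub_neg_eq_add, d2]) uy uz
  · exact SS_T H L hx hb hc
  · exact (SS_F H L hx hc hb).swap23
  · exact SS_side H L hx (ZF hb) (L.norm_YT R hc) nRe H.he
      (by rw [norm_sub_rev, sub_neg_eq_add, d2]) uy uz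
  · exact SS_side H L hx (ZT hb) (L.norm_YF R hc) ne hRe
      (by rw [norm_sub_rev, sub_neg_eq_add, add_comm, d2]) uy uz
  · exact (SS_T H L hx hc hb).swap23
  · exact SS_side H L hx (ZF hb) (ZF hc) nRe nRe (by simp [s2]) uy uz
  · exact SS_side H L hx (ZF hb) (ZT hc) nRe ne
      (by rw [neg_sub_neg, d1]) uy uz
  · exact SS_side H L hx (ZT hb) (ZF hc) ne nRe
      (by rw [neg_sub_neg, norm_sub_rev, d1]) uy uz
  · exact SS_side H L hx (ZT hb) (ZT hc) ne ne (by simp [s2]) uy uz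

theorem mem_K_cases {x : E d} (hx : x ∈ (mkConf H L).K) : x ∈ L.KA ∨ Outer L R x := by
  rcases hx with hx | hx
  · exact Or.inl hx
  · right
    obtain ⟨i, hi⟩ := Set.mem_iUnion.1 hx
    rcases hi with ⟨a, ha, rfl⟩ | ⟨a, ha, rfl⟩
    · exact ⟨i, Or.inl ⟨a, ha, rfl⟩⟩
    · exact ⟨i, Or.inr ⟨a, ha, rfl⟩⟩

theorem c0_nonneg : 0 ≤ c0 s := by
  unfold c0; positivity

end

theorem mkConf_opt {s η : ℝ} {e : E d} {R : E d ≃ₗᵢ[ℝ] E d} (H : Hyp s η e R) (L : Loc s η e) :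
    (mkConf H L).Opt := by
  have key : ∀ x ∈ (mkConf H L).K, ∀ y ∈ (mkConf H L).K, ∀ z ∈ (mkConf H L).K,
      (mkConf H L).SS x y z := by
    intro x hx y hy z hz
    have hc := c0_nonneg (s := s) H
    rcases mem_K_cases H L hx with hx | hx <;> rcases mem_K_cases H L hy with hy | hy <;>
      rcases mem_K_cases H L hz with hz | hz
    · exact SS_twoA H L hx hy (L.U_le_A R hz)
    · exact SS_twoA H L hx hy (by linarith [(outer_bd H L hz).2])
    · exact (SS_twoA H L hx hz (by linarith [(outer_bd H L hy).2])).swap23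
    · exact SS_oneA H L hx hy hz
    · exact (SS_twoA H L hy hz (by linarith [(outer_bd H L hx).2])).swap23.swap12
    · exact (SS_oneA H L hy hx hz).swap12
    · exact (SS_oneA H L hz hx hy).swap12.swap23
    · exact SS_noA H L (outer_bd H L hx) (outer_bd H L hy) (outer_bd H L hz)
  exact ⟨fun x hx y hy z hz => (key x hx y hy z hz).1,
    fun x hx y hy z hz => (key x hx y hy z hz).2⟩

end Crest.Agent.R130
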