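import Crest.Agent.R130.Defs

/-!
# Row 130, piece TAN: tangent inequality and strict minimality at critical points

* `tangent`: with `t = ‖w‖²`, `t₀ = ‖w₀‖²`: `(t/t₀)^(-s/2) ≥ 1 - (s/2)(t/t₀ - 1)` (from `x^(-a) = exp(-a log x) ≥ 1 - a log x
  ≥ 1 - a (x-1)`), and `t - t₀ = 2⟪w₀, w-w₀⟫ + ‖w-w₀‖²`.
* `critical_min`: add the three tangent inequalities at `x₀-y₀`, `x₀-z₀`, `y₀-z₀` (`dx = x-x₀`, `dy = y-y₀`):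
  `cr x y z₀ ≥ cr x₀ y₀ z₀ - s⟪V(x₀-y₀)+V(x₀-z₀), dx⟫ - s⟪V(y₀-x₀)+V(y₀-z₀), dy⟫ - (s/2)(λ₁‖dx-dy‖²+λ₃‖dx‖²+λ₂‖dy‖²)`,
  `uA`, `uB` are exactly quadratic, so the linear terms cancel by `h1, h2`; `‖dx-dy‖² ≤ 2‖dx‖²+2‖dy‖²`, `λ ≤ 2`,
  `κ ≥ 32`: remaining coefficients `(s/2)(κ - 6) ≥ s`, `(s/2)(8-6) = s`.
-/

set_option autoImplicit false
open Metric Set

namespace Crest.Agent.R130

variable {d : ℕ}

theorem tangent {s : ℝ} (hs : 0 < s) {w₀ w : E d} (h₀ : w₀ ≠ 0) (h : w ≠ 0) :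
    ‖w₀‖ ^ (-s) - s * inner ℝ (V s w₀) (w - w₀) - s / 2 * ‖w₀‖ ^ (-s - 2) * ‖w - w₀‖ ^ 2
      ≤ ‖w‖ ^ (-s) := by
  have hn0 : 0 < ‖w₀‖ := norm_pos_iff.2 h₀
  have hn : 0 < ‖w‖ := norm_pos_iff.2 h
  set x : ℝ := ‖w‖ ^ 2 / ‖w₀‖ ^ 2 with hx
  have hxpos : 0 < x := by positivity
  have hkey : 1 - s / 2 * (x - 1) ≤ x ^ (-(s / 2)) := by
    rw [Real.rpow_def_of_pos hxpos]
    have h1 := Real.add_one_le_exp (Real.log x * -(s / 2))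
    have h2 := Real.log_le_sub_one_of_pos hxpos
    nlinarith
  have hxr : x ^ (-(s / 2)) = ‖w‖ ^ (-s) / ‖w₀‖ ^ (-s) := by
    rw [hx, Real.div_rpow (by positivity) (by positivity), ← Real.rpow_natCast, ← Real.rpow_natCast,
      ← Real.rpow_mul hn.le, ← Real.rpow_mul hn0.le]
    norm_num
    congr 2 <;> ring_nf
  have hw0s : 0 < ‖w₀‖ ^ (-s) := Real.rpow_pos_of_pos hn0 _
  have hlam : ‖w₀‖ ^ (-s - 2) = ‖w₀‖ ^ (-s) / ‖w₀‖ ^ 2 := by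
    rw [Real.rpow_sub hn0]; norm_num
  have hdiff : ‖w‖ ^ 2 - ‖w₀‖ ^ 2 = 2 * inner ℝ w₀ (w - w₀) + ‖w - w₀‖ ^ 2 := by
    have := norm_add_sq_real w₀ (w - w₀)
    rw [add_sub_cancel] at this
    linarith
  have hinner : inner ℝ (V s w₀) (w - w₀) = ‖w₀‖ ^ (-s - 2) * inner ℝ w₀ (w - w₀) := by
    unfold V
    rw [real_inner_smul_left]
  have hmul : ‖w₀‖ ^ (-s) * (1 - s / 2 * (x - 1)) ≤ ‖w‖ ^ (-s) := by
    calc ‖w₀‖ ^ (-s) * (1 - s / 2 * (x - 1)) ≤ ‖w₀‖ ^ (-s) * x ^ (-(s / 2)) :=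
          mul_le_mul_of_nonneg_left hkey hw0s.le
      _ = ‖w‖ ^ (-s) := by rw [hxr]; field_simp
  refine le_trans (le_of_eq ?_) hmul
  rw [hinner, hlam, hx]
  have hsq : ‖w₀‖ ^ 2 ≠ 0 := by positivity
  have : ‖w‖ ^ 2 / ‖w₀‖ ^ 2 - 1 = (2 * inner ℝ w₀ (w - w₀) + ‖w - w₀‖ ^ 2) / ‖w₀‖ ^ 2 := by
    rw [← hdiff]; field_simp
  rw [this]
  field_simp
  ring

theorem critical_min {s : ℝ} (hs : 0 < s) {e x₀ y₀ z₀ : E d} (hxy₀ : x₀ ≠ y₀) (hxz₀ : x₀ ≠ z₀)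
    (hyz₀ : y₀ ≠ z₀)
    (h1 : V s (x₀ - y₀) + V s (x₀ - z₀) = kap s • x₀)
    (h2 : V s (y₀ - x₀) + V s (y₀ - z₀) = (1 + 2 * tau s) • e + (8 : ℝ) • (y₀ - e))
    (l1 : ‖x₀ - y₀‖ ^ (-s - 2) ≤ 2) (l2 : ‖y₀ - z₀‖ ^ (-s - 2) ≤ 2)
    (l3 : ‖x₀ - z₀‖ ^ (-s - 2) ≤ 2) {x y : E d} (hxy : x ≠ y) (hxz : x ≠ z₀) (hyz : y ≠ z₀) :
    cr s x₀ y₀ z₀ - uA s x₀ - uB s e y₀ + s * (‖x - x₀‖ ^ 2 + ‖y - y₀‖ ^ 2)
      ≤ cr s x y z₀ - uA s x - uB s e y := by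
  set dx : E d := x - x₀ with hdx
  set dy : E d := y - y₀ with hdy
  have t1 := tangent hs (sub_ne_zero.2 hxy₀) (sub_ne_zero.2 hxy)
  have t2 := tangent hs (sub_ne_zero.2 hyz₀) (sub_ne_zero.2 hyz)
  have t3 := tangent hs (sub_ne_zero.2 hxz₀) (sub_ne_zero.2 hxz)
  have e1 : x - y - (x₀ - y₀) = dx - dy := by rw [hdx, hdy]; abel
  have e2 : y - z₀ - (y₀ - z₀) = dy := by rw [hdy]; abel
  have e3 : x - z₀ - (x₀ - z₀) = dx := by rw [hdx]; abel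
  rw [e1] at t1
  rw [e2] at t2
  rw [e3] at t3
  -- linear terms
  have hVneg : V s (y₀ - x₀) = - V s (x₀ - y₀) := by
    unfold V
    rw [norm_sub_rev, ← smul_neg, neg_sub]
  have i1 : inner ℝ (V s (x₀ - y₀)) dx + inner ℝ (V s (x₀ - z₀)) dx = kap s * inner ℝ x₀ dx := by
    rw [← inner_add_left, h1, real_inner_smul_left]
  have i2 : - inner ℝ (V s (x₀ - y₀)) dy + inner ℝ (V s (y₀ - z₀)) dy =
      (1 + 2 * tau s) * inner ℝ e dy + 8 * inner ℝ (y₀ - e) dy := by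
    rw [← inner_neg_left, ← hVneg, ← inner_add_left, h2, inner_add_left, real_inner_smul_left,
      real_inner_smul_left]
  rw [inner_sub_right] at t1
  -- quadratic potentials
  have hxsq : ‖x‖ ^ 2 = ‖x₀‖ ^ 2 + 2 * inner ℝ x₀ dx + ‖dx‖ ^ 2 := by
    have := norm_add_sq_real x₀ dx
    rw [hdx, add_sub_cancel] at this
    rw [hdx]; exact this
  have hysq : ‖y - e‖ ^ 2 = ‖y₀ - e‖ ^ 2 + 2 * inner ℝ (y₀ - e) dy + ‖dy‖ ^ 2 := by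
    have := norm_add_sq_real (y₀ - e) dy
    rw [show y₀ - e + dy = y - e by rw [hdy]; abel] at this
    exact this
  have hyin : inner ℝ e (y - e) = inner ℝ e (y₀ - e) + inner ℝ e dy := by
    rw [← inner_add_right]; congr 1; rw [hdy]; abel
  have hpar : ‖dx - dy‖ ^ 2 ≤ 2 * ‖dx‖ ^ 2 + 2 * ‖dy‖ ^ 2 := by
    have := parallelogram_law_with_norm ℝ dx dy
    nlinarith [sq_nonneg ‖dx + dy‖]
  have hkap : 32 ≤ kap s := by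
    unfold kap
    calc (32 : ℝ) = 2 ^ (5 : ℝ) := by norm_num
      _ ≤ 2 ^ (s + 5) := Real.rpow_le_rpow_of_exponent_le (by norm_num) (by linarith)
  have q1 : ‖x₀ - y₀‖ ^ (-s - 2) * ‖dx - dy‖ ^ 2 ≤ 4 * ‖dx‖ ^ 2 + 4 * ‖dy‖ ^ 2 := by
    calc ‖x₀ - y₀‖ ^ (-s - 2) * ‖dx - dy‖ ^ 2 ≤ 2 * ‖dx - dy‖ ^ 2 :=
          mul_le_mul_of_nonneg_right l1 (sq_nonneg _)
      _ ≤ _ := by linarith
  have q2 : ‖y₀ - z₀‖ ^ (-s - 2) * ‖dy‖ ^ 2 ≤ 2 * ‖dy‖ ^ 2 := mul_le_mul_of_nonneg_right l2 (sq_nonneg _)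
  have q3 : ‖x₀ - z₀‖ ^ (-s - 2) * ‖dx‖ ^ 2 ≤ 2 * ‖dx‖ ^ 2 := mul_le_mul_of_nonneg_right l3 (sq_nonneg _)
  have q1' := mul_le_mul_of_nonneg_left q1 (by positivity : (0 : ℝ) ≤ s / 2)
  have q2' := mul_le_mul_of_nonneg_left q2 (by positivity : (0 : ℝ) ≤ s / 2)
  have q3' := mul_le_mul_of_nonneg_left q3 (by positivity : (0 : ℝ) ≤ s / 2)
  have hk : s / 2 * 32 * ‖dx‖ ^ 2 ≤ s / 2 * kap s * ‖dx‖ ^ 2 := by
    gcongr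
  have hsd : 0 ≤ s * ‖dx‖ ^ 2 := by positivity
  have i1' : s * inner ℝ (V s (x₀ - y₀)) dx + s * inner ℝ (V s (x₀ - z₀)) dx = s * (kap s * inner ℝ x₀ dx) := by
    rw [← i1]; ring
  have i2' : - (s * inner ℝ (V s (x₀ - y₀)) dy) + s * inner ℝ (V s (y₀ - z₀)) dy =
      s * ((1 + 2 * tau s) * inner ℝ e dy + 8 * inner ℝ (y₀ - e) dy) := by
    rw [← i2]; ring
  unfold cr uA uB
  rw [hxsq, hysq, hyin]
  nlinarith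

end Crest.Agent.R130
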