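import Crest.Agent.R130.MkConf
import Crest.Agent.R130.Tangent

/-!
# Row 130, piece INEQ1 (the two antipodal cases): dual feasibility and the contact set

For `x y z ∈ K` let `S x y z := (v x + v y + v z ≤ CC (x,y,z)) ∧ (CC (x,y,z) ≤ v x + v y + v z → Contact x y z)`;
`S` is invariant under permutations.  By `vv_add`, `CC_eq` (for distinct points; if two points coincide `CC = ⊤`), `S` follows from
the strict inequality `U x + U y + U z < cr s x y z`, in the cases
* two of the points in `A`: `‖x - y‖ ≤ 2η`, `Good.close`, `U ≤ c0 + η`;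
* no point in `A`: all norms `≤ 1 + η`, `U ≤ η`, distances `≤ 2 + 2η ≤ 3`, `Good.noA`;
* `x ∈ A`, `y`, `z` in outer blobs whose centres are at distance `≤ √2`: `Good.side`
  (`‖x-y‖, ‖x-z‖ ≤ 1+2η`, `‖y-z‖ ≤ √2+2η`);
* `x ∈ A`, `y = Y true b`, `z = Z true c` (antipodal blobs): `critical_min` with `x₀ = c`, `y₀ = P c`, `z₀ = Q c`
  (`λ ≤ 2` from `Good.lam`, since all distances are `≥ 1 - 2η`), equality only for `x = c`, `y = P c`;
* the same for `Y false`, `Z false`: apply the isometry `R` (`cr s (R x) (R y) (R z) = cr s x y z`, `uA s (R x) = uA s x`).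
-/

set_option autoImplicit false
open MeasureTheory Metric Set
open scoped ContDiff ENNReal
open Crest.AnalysisR.OT

namespace Crest.Agent.R130

variable {d : ℕ}

/-- real inequality in the antipodal case (branch `true`) -/
theorem ineq_true {s η : ℝ} {e : E d} {R : E d ≃ₗᵢ[ℝ] E d} (H : Hyp s η e R) (L : Loc s η e)
    {x b c : E d} (hx : x ∈ L.KA) (hb : b ∈ L.KA) (hc : c ∈ L.KA) :
    L.U R x + L.U R (L.Y R true b) + L.U R (L.Z R true c) ≤
        cr s x (L.Y R true b) (L.Z R true c) ∧
      (cr s x (L.Y R true b) (L.Z R true c) ≤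
        L.U R x + L.U R (L.Y R true b) + L.U R (L.Z R true c) →
        x = c ∧ L.Y R true b = L.Y R true c) := by sorry

theorem ineq_false {s η : ℝ} {e : E d} {R : E d ≃ₗᵢ[ℝ] E d} (H : Hyp s η e R) (L : Loc s η e)
    {x b c : E d} (hx : x ∈ L.KA) (hb : b ∈ L.KA) (hc : c ∈ L.KA) :
    L.U R x + L.U R (L.Y R false b) + L.U R (L.Z R false c) ≤
        cr s x (L.Y R false b) (L.Z R false c) ∧
      (cr s x (L.Y R false b) (L.Z R false c) ≤
        L.U R x + L.U R (L.Y R false b) + L.U R (L.Z R false c) →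
        x = c ∧ L.Y R false b = L.Y R false c) := by sorry

end Crest.Agent.R130
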