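import Crest.Agent.R130.Sol

/-!
# Row 130, piece LOC: existence of the local structure `Loc`

`P x = x + w x`, `Q x = x - w' x`; derivatives at `0`: `id` and `rkL e (1-κ) (κ (s+2)/(s+1))` (invertible by
`exists_rk_equiv`: `κ > 1`).  Apply `ift` to both, with the open set `U` of `exists_sol`; then choose `r` small: all the
functions in `nearP, nearQ, bA, bB, bC` are continuous at `0` with value `0` there
(`cr s 0 e (-e) = 2 + 2^(-s) = c0 s`).
-/

set_option autoImplicit false
open Metric Set
open scoped ContDiff

namespace Crest.Agent.R130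

variable {d : ℕ}

theorem exists_loc {s : ℝ} (hs : 0 < s) {e : E d} (he : ‖e‖ = 1) {η : ℝ} (hη : 0 < η) :
    Nonempty (Loc s η e) := by sorry

end Crest.Agent.R130
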