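import Crest.Agent.R130.MkConf

/-!
# Row 130, piece PART: uniform continuity of the gap function, finite partition of `KA`

`g i (x, x₁, x₂) = cr s x (Y i x₁) (Z i x₂) - U x - U (Y i x₁) - U (Z i x₂)` is continuous on the compact set
`KA × KA × KA` (use the formulas `U_A, U_YT, ...`) and vanishes for `x = x₁ = x₂` (`U_sum`); hence for `δ` small `g ≤ ε` when the three
points are in a set of diameter `< δ`; cover `KA` by finitely many sets of diameter `< δ` and disjointify.
-/

set_option autoImplicit false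
open MeasureTheory Metric Set
open scoped ContDiff ENNReal
open Crest.AnalysisR.OT

namespace Crest.Agent.R130

variable {d : ℕ}

theorem exists_part {s η : ℝ} {e : E d} {R : E d ≃ₗᵢ[ℝ] E d} (H : Hyp s η e R) (L : Loc s η e)
    {ε : ℝ≥0∞} (hε : ε ≠ 0) :
    ∃ (n : ℕ) (Q : Fin n → Set (E d)), (∀ j, MeasurableSet (Q j)) ∧
      Pairwise (Function.onFun Disjoint Q) ∧ (⋃ j, Q j) = L.KA ∧
      ∀ j (i : Bool), ∀ x ∈ Q j, ∀ x₁ ∈ Q j, ∀ x₂ ∈ Q j,
        CC s (x, L.Y R i x₁, L.Z R i x₂) ≤
          vv L R x + vv L R (L.Y R i x₁) + vv L R (L.Z R i x₂) + ε := by sorry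

end Crest.Agent.R130
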