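import Crest.Agent.R130.Defs

/-!
# Row 130, piece ROT: a unit vector and an isometric involution moving it to an orthogonal vector
(swap of the first two coordinates, `LinearIsometryEquiv.piLpCongrLeft`).
-/

set_option autoImplicit false
open Metric Set

namespace Crest.Agent.R130

theorem exists_rot {d : ℕ} (hd : 2 ≤ d) : ∃ (e : E d) (R : E d ≃ₗᵢ[ℝ] E d),
    ‖e‖ = 1 ∧ (∀ x, R (R x) = x) ∧ inner ℝ e (R e) = 0 := by sorry

end Crest.Agent.R130
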