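import Crest.Agent.R130.LocE
import Crest.Agent.R130.Eta
import Crest.Agent.R130.Rot
import Crest.Agent.R130.Ineq
import Crest.Agent.R130.Part
import Crest.Agent.R130.Abs
import Crest.Agent.R130.Approx
import Crest.Agent.R130.Dens

/-!
# Row 130: assembly
-/

set_option autoImplicit false
open MeasureTheory Metric Set
open scoped ContDiff ENNReal
open Crest.AnalysisR.OT

namespace Crest.Agent.R130

theorem main (d : ℕ) (hd : 2 ≤ d) (s : ℝ) (hs : 0 < s) :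
    ∃ ρ : EuclideanSpace ℝ (Fin d) → ℝ, (∀ x, 0 ≤ ρ x) ∧ ContDiff ℝ ∞ ρ ∧ HasCompactSupport ρ ∧
      ContDiff ℝ ∞ (fun x => Real.sqrt (ρ x)) ∧ ∫ x, ρ x = 1 ∧
      ∃ π₀ : Measure (EuclideanSpace ℝ (Fin d) × EuclideanSpace ℝ (Fin d) × EuclideanSpace ℝ (Fin d)),
        IsCoupling₃ (measOfDensity ρ) π₀ ∧ ∫⁻ p, tripleCost s p ∂π₀ < ⊤ ∧
        (∀ π : Measure (EuclideanSpace ℝ (Fin d) × EuclideanSpace ℝ (Fin d) × EuclideanSpace ℝ (Fin d)), IsCoupling₃ (measOfDensity ρ) π →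
          ∫⁻ p, tripleCost s p ∂π₀ ≤ ∫⁻ p, tripleCost s p ∂π) ∧
        (∀ T₂ T₃ : EuclideanSpace ℝ (Fin d) → EuclideanSpace ℝ (Fin d), Measurable T₂ → Measurable T₃ →
          (measOfDensity ρ).map T₂ = measOfDensity ρ → (measOfDensity ρ).map T₃ = measOfDensity ρ →
          ∫⁻ p, tripleCost s p ∂π₀ < ∫⁻ x, tripleCost s (x, T₂ x, T₃ x) ∂(measOfDensity ρ)) ∧
        (∀ ε : ℝ≥0∞, 0 < ε → ∃ T₂ T₃ : EuclideanSpace ℝ (Fin d) → EuclideanSpace ℝ (Fin d), Measurable T₂ ∧ Measurable T₃ ∧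
          (measOfDensity ρ).map T₂ = measOfDensity ρ ∧ (measOfDensity ρ).map T₃ = measOfDensity ρ ∧
          ∫⁻ x, tripleCost s (x, T₂ x, T₃ x) ∂(measOfDensity ρ) < ∫⁻ p, tripleCost s p ∂π₀ + ε) := by
  obtain ⟨η, hg⟩ := exists_good hs
  obtain ⟨e, R, he, hR, ho⟩ := exists_rot hd
  obtain ⟨L⟩ := exists_loc (d := d) hs he hg.pos
  have H : Hyp s η e R := ⟨hs, hg, he, hR, ho⟩
  obtain ⟨φ, hφ, hφ0, hφs, hφ1⟩ := exists_phi (d := d) L.hr
  set ν : Measure (E d) := measOfDensity (fun x => φ x ^ 2) with hν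
  obtain ⟨θ, hθ, hθ0, hθc, hθm⟩ := exists_theta H L φ hφ hφ0 hφs
  set F := mkConf H L with hF
  have hFKA : F.KA = closedBall 0 L.r := rfl
  have hνuniv : ν univ = ENNReal.ofReal (1 / 6) := hφ1
  have hνfin : IsFiniteMeasure ν := ⟨by rw [hνuniv]; exact ENNReal.ofReal_lt_top⟩
  have hνac : ν ≪ volume := withDensity_absolutelyContinuous _ _
  have hνK : ν F.KAᶜ = 0 := by
    rw [hν]
    unfold measOfDensity
    have hm : MeasurableSet F.KAᶜ := F.mKA.compl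
    rw [withDensity_apply _ hm]
    rw [setLIntegral_congr_fun (g := fun _ => 0) hm]
    · simp
    · intro x hx
      have hx' : x ∉ tsupport φ := fun h => hx (by rw [hFKA]; exact hφs h)
      have h0 : φ x = 0 := image_eq_zero_of_notMem_tsupport hx'
      simp [h0]
  set μ : Measure (E d) := F.mu ν with hμ
  have hμθ : measOfDensity (fun x => θ x ^ 2) = μ := hθm
  have hμuniv : μ univ = 1 := by
    rw [hμ]
    unfold Conf.mu
    simp only [Measure.add_apply]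
    rw [Measure.map_apply (F.mY true) MeasurableSet.univ, Measure.map_apply (F.mZ true) MeasurableSet.univ,
      Measure.map_apply (F.mY false) MeasurableSet.univ, Measure.map_apply (F.mZ false) MeasurableSet.univ]
    simp only [preimage_univ]
    rw [hνuniv]
    rw [← ENNReal.ofReal_add (by norm_num) (by norm_num),
      ← ENNReal.ofReal_add (by norm_num) (by norm_num),
      ← ENNReal.ofReal_add (by norm_num) (by norm_num)]
    norm_num
  have hμprob : IsProbabilityMeasure μ := ⟨hμuniv⟩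
  have hμac : μ ≪ volume := by
    rw [← hμθ]; exact withDensity_absolutelyContinuous _ _
  have hO : F.Opt := mkConf_opt H L
  have hν0 : ν ≠ 0 := by
    intro h
    rw [h, Measure.coe_zero, Pi.zero_apply] at hνuniv
    refine absurd hνuniv.symm ?_
    rw [ENNReal.ofReal_eq_zero]
    norm_num
  set J : ℝ≥0∞ := 3 * ∫⁻ x, F.v x ∂μ with hJ
  have hJfin : J ≠ ⊤ := by
    rw [hJ]
    exact ENNReal.mul_ne_top (by norm_num) (F.lintegral_v_lt_top ν).ne
  have hCtot : ∀ π : Measure (E d × E d × E d), IsCoupling₃ μ π →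
      ∫⁻ p, CC s p ∂π = ∫⁻ p, tripleCost s p ∂π + 3 := by
    intro π hπ
    have hπ1 : π univ = 1 := by
      rw [← hμuniv, ← hπ.1, Measure.map_apply measurable_fst MeasurableSet.univ, preimage_univ]
    unfold CC
    rw [lintegral_add_right _ measurable_const, lintegral_const, hπ1, mul_one]
  have hπ₀ : IsCoupling₃ μ (F.pi0 ν) := F.isCoupling_pi0 ν
  have hcost0 : ∫⁻ p, tripleCost s p ∂(F.pi0 ν) + 3 = J := by
    rw [← hCtot _ hπ₀]
    exact F.cost_pi0 ν hνK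
  have h3 : (3 : ℝ≥0∞) ≠ ⊤ := by norm_num
  have hTm : ∀ T₂ T₃ : E d → E d, Measurable T₂ → Measurable T₃ → μ.map T₂ = μ → μ.map T₃ = μ →
      ∫⁻ x, CC s (x, T₂ x, T₃ x) ∂μ = ∫⁻ x, tripleCost s (x, T₂ x, T₃ x) ∂μ + 3 := by
    intro T₂ T₃ h₂ h₃ m₂ m₃
    unfold CC
    rw [lintegral_add_right _ measurable_const, lintegral_const, hμuniv, mul_one]
  have hcfin : ∫⁻ p, tripleCost s p ∂(F.pi0 ν) ≠ ⊤ := by
    intro h
    rw [h] at hcost0
    exact hJfin (by rw [← hcost0]; simp)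
  refine ⟨fun x => θ x ^ 2, fun x => sq_nonneg _, hθ.pow 2, ?_, ?_, ?_, F.pi0 ν, ?_, ?_, ?_, ?_, ?_⟩
  · have : (fun x => θ x ^ 2) = (fun t : ℝ => t ^ 2) ∘ θ := rfl
    rw [this]
    exact hθc.comp_left (by norm_num)
  · have : (fun x => Real.sqrt (θ x ^ 2)) = θ := by
      funext x; exact Real.sqrt_sq (hθ0 x)
    rw [this]; exact hθ
  · rw [integral_eq_lintegral_of_nonneg_ae (Filter.Eventually.of_forall fun x => sq_nonneg _)
      (hθ.continuous.pow 2).aestronglyMeasurable]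
    have h1 : ∫⁻ x, ENNReal.ofReal (θ x ^ 2) = measOfDensity (fun x => θ x ^ 2) univ := by
      unfold measOfDensity
      rw [withDensity_apply _ MeasurableSet.univ, Measure.restrict_univ]
    rw [h1, hμθ, hμuniv]
    norm_num
  · rw [hμθ]; exact hπ₀
  · exact lt_top_iff_ne_top.2 hcfin
  · intro π hπ
    rw [hμθ] at hπ
    have h1 := F.low hO ν hνK π hπ
    change J ≤ ∫⁻ p, CC s p ∂π at h1
    rw [hCtot π hπ, ← hcost0] at h1
    exact (ENNReal.add_le_add_iff_right h3).1 h1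
  · intro T₂ T₃ h₂ h₃ m₂ m₃
    rw [hμθ] at m₂ m₃ ⊢
    by_contra hcon
    push Not at hcon
    have h1 : ∫⁻ x, CC s (x, T₂ x, T₃ x) ∂μ ≤ J := by
      rw [hTm T₂ T₃ h₂ h₃ m₂ m₃, ← hcost0]
      gcongr
    have h2 := F.contact_ae hO ν hνK T₂ T₃ h₂ h₃ m₂ m₃ h1
    exact F.not_contact_ae ν hνK hν0 T₂ T₃ h₂ h₃ m₂ m₃ h2
  · intro ε hε
    obtain ⟨ε', hε'0, hε'⟩ : ∃ ε' : ℝ≥0∞, ε' ≠ 0 ∧ ε' < ε := by
      obtain ⟨x, hx0, hx⟩ := exists_between hε
      exact ⟨x, hx0.ne', hx⟩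
    obtain ⟨n, Q, hQm, hQd, hQc, hQC⟩ := exists_part H L hε'0
    obtain ⟨T₂, T₃, h₂, h₃, m₂, m₃, hc⟩ :=
      F.approx (by omega) ν hνK hνac hμac Q hQm hQd hQc hQC
    refine ⟨T₂, T₃, h₂, h₃, by rw [hμθ]; exact m₂, by rw [hμθ]; exact m₃, ?_⟩
    rw [hμθ]
    change ∫⁻ x, CC s (x, T₂ x, T₃ x) ∂μ ≤ J + ε' * μ univ at hc
    rw [hTm T₂ T₃ h₂ h₃ m₂ m₃, ← hcost0, hμuniv, mul_one] at hc
    have h4 : ∫⁻ x, tripleCost s (x, T₂ x, T₃ x) ∂μ ≤ ∫⁻ p, tripleCost s p ∂(F.pi0 ν) + ε' := by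
      have : ∫⁻ x, tripleCost s (x, T₂ x, T₃ x) ∂μ + 3 ≤
          (∫⁻ p, tripleCost s p ∂(F.pi0 ν) + ε') + 3 := by
        calc _ ≤ _ := hc
          _ = _ := by ring
      exact (ENNReal.add_le_add_iff_right h3).1 this
    exact lt_of_le_of_lt h4 (ENNReal.add_lt_add_left hcfin hε')

end Crest.Agent.R130
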