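import Crest.Agent.R130.GeoU

/-!
# Row 130, piece MEAS: measurability of the maps `Y`, `Z`, of the potential `U` and of the cost
-/

set_option autoImplicit false
open MeasureTheory Metric Set
open scoped ContDiff ENNReal

namespace Crest.Agent.R130

namespace Loc

variable {d : ℕ} {s η : ℝ} {e : E d} (L : Loc s η e) (R : E d ≃ₗᵢ[ℝ] E d)

theorem measurable_Y (i : Bool) : Measurable (L.Y R i) := by sorry

theorem measurable_Z (i : Bool) : Measurable (L.Z R i) := by sorry

theorem image_Y (hR : ∀ x, R (R x) = x) (i : Bool) (S : Set (E d)) (hS : MeasurableSet S)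
    (h : S ⊆ L.KA) : MeasurableSet (L.Y R i '' S) := by sorry

theorem image_Z (hR : ∀ x, R (R x) = x) (i : Bool) (S : Set (E d)) (hS : MeasurableSet S)
    (h : S ⊆ L.KA) : MeasurableSet (L.Z R i '' S) := by sorry

theorem measurable_U (hs : 0 < s) (hg : Good s η) (he : ‖e‖ = 1) : Measurable (L.U R) := by sorry

end Loc

theorem measurable_tripleCost {d : ℕ} (s : ℝ) :
    Measurable (Crest.AnalysisR.OT.tripleCost (E := E d) s) := by sorry

end Crest.Agent.R130
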