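import Crest.Agent.R130.Meas

/-!
# Row 130: the concrete configuration
-/

set_option autoImplicit false
open MeasureTheory Metric Set
open scoped ContDiff ENNReal
open Crest.AnalysisR.OT

namespace Crest.Agent.R130

variable {d : ℕ}

/-- all hypotheses on the data -/
structure Hyp (s η : ℝ) (e : E d) (R : E d ≃ₗᵢ[ℝ] E d) : Prop where
  hs : 0 < s
  hg : Good s η
  he : ‖e‖ = 1
  hR : ∀ x, R (R x) = x
  ho : inner ℝ e (R e) = 0

/-- the shifted cost -/
noncomputable def CC (s : ℝ) (p : E d × E d × E d) : ℝ≥0∞ := tripleCost s p + 3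

/-- the shifted potential -/
noncomputable def vv {s η : ℝ} {e : E d} (L : Loc s η e) (R : E d ≃ₗᵢ[ℝ] E d) (x : E d) : ℝ≥0∞ :=
  ENNReal.ofReal (L.U R x + 1)

theorem vv_add {s η : ℝ} {e : E d} {R : E d ≃ₗᵢ[ℝ] E d} (H : Hyp s η e R) (L : Loc s η e)
    (x y z : E d) :
    vv L R x + vv L R y + vv L R z = ENNReal.ofReal (L.U R x + L.U R y + L.U R z + 3) := by
  have hx := (L.U_bound R H.hs H.hg H.hR x).1
  have hy := (L.U_bound R H.hs H.hg H.hR y).1
  have hz := (L.U_bound R H.hs H.hg H.hR z).1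
  unfold vv
  rw [← ENNReal.ofReal_add (by linarith) (by linarith),
    ← ENNReal.ofReal_add (by linarith) (by linarith)]
  congr 1
  ring

theorem CC_eq {s : ℝ} (hs : 0 < s) {x y z : E d} (hxy : x ≠ y) (hxz : x ≠ z) (hyz : y ≠ z) :
    CC s (x, y, z) = ENNReal.ofReal (cr s x y z + 3) := by
  unfold CC
  have h0 : 0 ≤ cr s x y z := by
    unfold cr; positivity
  rw [tripleCost_eq hs hxy hxz hyz, ENNReal.ofReal_add h0 (by norm_num)]
  norm_num

theorem pairCost_comm {s : ℝ} (x y : E d) : pairCost s x y = pairCost s y x := by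
  unfold pairCost; rw [norm_sub_rev]

/-- the concrete configuration -/
noncomputable def mkConf {s η : ℝ} {e : E d} {R : E d ≃ₗᵢ[ℝ] E d} (H : Hyp s η e R)
    (L : Loc s η e) : Conf (CC (d := d) s) where
  KA := L.KA
  Y := L.Y R
  Z := L.Z R
  v := vv L R
  mC := (measurable_tripleCost s).add_const 3
  mKA := measurableSet_closedBall
  mY := L.measurable_Y R
  mZ := L.measurable_Z R
  mv := ((L.measurable_U R H.hs H.hg H.he).add_const 1).ennreal_ofReal
  vfin := ⟨ENNReal.ofReal (c0 s + 2), ENNReal.ofReal_ne_top, fun x =>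
    ENNReal.ofReal_le_ofReal (by have := (L.U_bound R H.hs H.hg H.hR x).2; linarith)⟩
  imY := fun i S hS h => L.image_Y R H.hR i S hS h
  imZ := fun i S hS h => L.image_Z R H.hR i S hS h
  injY := L.injY R H.hR
  injZ := L.injZ R H.hR
  dAY := fun i a ha b hb => L.dAY R H.hg H.he i ha hb
  dAZ := fun i a ha b hb => L.dAZ R H.hg H.he i ha hb
  dYZ := fun i j a ha b hb => L.dYZ R H.hg H.he H.ho i j ha hb
  dYY := fun a ha b hb => L.dYY R H.hg H.he H.ho ha hb
  dZZ := fun a ha b hb => L.dZZ R H.hg H.he H.ho ha hb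
  hcon := fun i a ha => by
    rw [vv_add H L, L.U_sum R H.hg H.he H.hR H.ho i ha]
    exact CC_eq H.hs (L.dAY R H.hg H.he i ha ha).symm (L.dAZ R H.hg H.he i ha ha).symm
      (L.dYZ R H.hg H.he H.ho i i ha ha)
  symm12 := fun x y z => by
    unfold CC tripleCost
    simp only
    rw [pairCost_comm x y]
    ring
  symm23 := fun x y z => by
    unfold CC tripleCost
    simp only
    rw [pairCost_comm y z]
    ring

end Crest.Agent.R130
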