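import Crest.Agent.R130.TranspA

/-!
# Row 130, piece PERM: transport maps between parts of an absolutely continuous measure

* `exists_cdf_map`: the cdf of an atomless probability measure on `ℝ` pushes it to the uniform measure on `unitInterval`
  (check on `Iic`/`Icc 0 x`: `m {t | cdf t ≤ x} = x`, `cdf` continuous monotone with limits `0`, `1`).
* `exists_transport`: normalise; first coordinate of `E d` (hyperplanes are null, so the law has no atoms), then `exists_cdf_map`,
  then `MeasureTheory.Measure.exists_measurable_map_eq`.
* `exists_half`: `t ↦ μ (Q ∩ {x | x 0 ≤ t})` is continuous with limits `0`, `μ Q` (intermediate value theorem).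
* `exists_perm_transport`: glue the maps of `exists_transport`.
-/

set_option autoImplicit false
open MeasureTheory Set
open scoped ENNReal

namespace Crest.Agent.R130

variable {d : ℕ}

theorem exists_perm_transport (hd : 0 < d) (μ : Measure (E d)) [IsFiniteMeasure μ]
    (hμ : μ ≪ volume) {ι : Type*} [Fintype ι] (P : ι → Set (E d)) (hP : ∀ i, MeasurableSet (P i))
    (hdis : Pairwise (Function.onFun Disjoint P)) (hcov : μ (⋃ i, P i)ᶜ = 0) (σ : Equiv.Perm ι)
    (hσ : ∀ i, μ (P i) = μ (P (σ i))) :
    ∃ T : E d → E d, Measurable T ∧ μ.map T = μ ∧ ∀ i, ∀ᵐ x ∂μ, x ∈ P i → T x ∈ P (σ i) := by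
  sorry

end Crest.Agent.R130
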