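import Crest.Agent.R130.VField
import Crest.Agent.R130.Ift

/-!
# Row 130, piece SOL: local solution `(w, w')` of the critical point equations

`Ψ (w, w') = (V w' - V w, 8 (w - e) - (1+τ) V w - V (w+w') + τ V w' + (1+2τ) e)`, smooth on the open set
`w ≠ 0, w' ≠ 0, w + w' ≠ 0` of `E × E`, `Ψ (e, e) = (0, 0)` (`V e = e`, `V (2e) = 2τ e`), derivative at `(e,e)`:
`(a, b) ↦ (T (b - a), 8 a - (1+2τ) T a)`, `T = rkL e 1 (-(s+2))`; invertible with inverse
`(p, q) ↦ (a, a + T⁻¹ p)`, `a = (8 - (1+2τ)T)⁻¹ q`,  `8 - (1+2τ) T = rkL e (7-2τ) ((1+2τ)(s+2))`,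
`T⁻¹ = rkL e 1 (-(s+2)/(s+1))` (`exists_rk_equiv`; `0 < τ < 1/4`).
Apply `ift`, `(w x, w' x) = Ψ⁻¹ (κ x, 0)`; derivative at `0`: `ξ ↦ (0, κ T⁻¹ ξ)`.  `κ τ = 8`.
-/

set_option autoImplicit false
open Metric Set
open scoped ContDiff

namespace Crest.Agent.R130

variable {d : ℕ}

theorem kap_mul_tau (s : ℝ) : kap s * tau s = 8 := by
  unfold kap tau
  rw [← Real.rpow_add (by norm_num : (0 : ℝ) < 2)]
  have : s + 5 + (-s - 2) = (3 : ℕ) := by push_cast; ring
  rw [this, Real.rpow_natCast]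
  norm_num

private theorem sol_tau_pos (s : ℝ) : 0 < tau s := Real.rpow_pos_of_pos (by norm_num) _

private theorem sol_tau_lt {s : ℝ} (hs : 0 < s) : tau s < 1 / 4 := by
  unfold tau
  have h1 : (2 : ℝ) ^ (-s - 2) < (2 : ℝ) ^ (-2 : ℝ) :=
    Real.rpow_lt_rpow_of_exponent_lt (by norm_num) (by linarith)
  have h2 : (2 : ℝ) ^ (-2 : ℝ) = 1 / 4 := by
    rw [show (-2 : ℝ) = -((2 : ℕ) : ℝ) by norm_num, Real.rpow_neg (by norm_num), Real.rpow_natCast]
    norm_num
  rw [h2] at h1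
  exact h1

/-- the map whose inverse solves the equations -/
private noncomputable def Psi (s : ℝ) (e : E d) (p : E d × E d) : E d × E d :=
  (V s p.2 - V s p.1,
    (8 : ℝ) • (p.1 - e) - (1 + tau s) • V s p.1 - V s (p.1 + p.2) + tau s • V s p.2 +
      (1 + 2 * tau s) • e)

private theorem sol_exists_psi {s : ℝ} (hs : 0 < s) {e : E d} (he : ‖e‖ = 1) :
    ∃ P : OpenPartialHomeomorph (E d × E d) (E d × E d), (e, e) ∈ P.source ∧
      (∀ x, P x = Psi s e x) ∧ ContDiffOn ℝ ∞ P.symm P.target ∧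
      ∃ D : (E d × E d) →L[ℝ] (E d × E d), HasFDerivAt P.symm D (P (e, e)) ∧
        ∀ ξ : E d, D (ξ, 0) = (0, rkL e 1 (-((s + 2) / (s + 1))) ξ) := by
  have hτ0 := sol_tau_pos s
  have hτ1 := sol_tau_lt hs
  obtain ⟨TE, hTE, hTE'⟩ := exists_rk_equiv (d := d) he (α := 1) (β := -(s + 2)) one_ne_zero
    (by intro h; linarith)
  obtain ⟨SE, hSE, hSE'⟩ := exists_rk_equiv (d := d) he (α := 7 - 2 * tau s)
    (β := (1 + 2 * tau s) * (s + 2)) (by intro h; linarith) (by intro h; nlinarith)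
  -- the domain
  let O : Set (E d × E d) := {p | p.1 ≠ 0 ∧ p.2 ≠ 0 ∧ p.1 + p.2 ≠ 0}
  have hO : IsOpen O := by
    refine (isOpen_ne_fun continuous_fst continuous_const).inter
      ((isOpen_ne_fun continuous_snd continuous_const).inter
        (isOpen_ne_fun (continuous_fst.add continuous_snd) continuous_const))
  have hene : e ≠ 0 := by
    intro h; rw [h, norm_zero] at he; norm_num at he
  have hee : e + e ≠ 0 := by
    rw [← two_smul ℝ e]
    exact smul_ne_zero two_ne_zero hene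
  have heO : (e, e) ∈ O := ⟨hene, hene, hee⟩
  -- smoothness
  have hsm : ContDiffOn ℝ ∞ (Psi s e) O := by
    intro p hp
    refine ContDiffAt.contDiffWithinAt ?_
    have h1 : ContDiffAt ℝ ∞ (fun p : E d × E d => V s p.1) p :=
      (V_contDiffAt s hp.1).comp p contDiffAt_fst
    have h2 : ContDiffAt ℝ ∞ (fun p : E d × E d => V s p.2) p :=
      (V_contDiffAt s hp.2.1).comp p contDiffAt_snd
    have h3 : ContDiffAt ℝ ∞ (fun p : E d × E d => V s (p.1 + p.2)) p :=
      ContDiffAt.comp (g := V s) (f := fun p : E d × E d => p.1 + p.2) p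
        (V_contDiffAt s hp.2.2) (contDiffAt_fst.add contDiffAt_snd)
    refine (h2.sub h1).prodMk ?_
    refine ContDiffAt.add (ContDiffAt.add (ContDiffAt.sub (ContDiffAt.sub ?_ ?_) h3) ?_)
      contDiffAt_const
    · exact (contDiffAt_fst.sub contDiffAt_const).const_smul _
    · exact h1.const_smul _
    · exact h2.const_smul _
  -- the derivative at (e, e)
  let T : E d →L[ℝ] E d := rkL e 1 (-(s + 2))
  have hV1 : HasFDerivAt (fun p : E d × E d => V s p.1) (T.comp (ContinuousLinearMap.fst ℝ _ _))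
      (e, e) := HasFDerivAt.comp (e, e) (g := V s) (f := Prod.fst) (V_hasFDerivAt s he)
        hasFDerivAt_fst
  have hV2 : HasFDerivAt (fun p : E d × E d => V s p.2) (T.comp (ContinuousLinearMap.snd ℝ _ _))
      (e, e) := HasFDerivAt.comp (e, e) (g := V s) (f := Prod.snd) (V_hasFDerivAt s he)
        hasFDerivAt_snd
  have hV3 : HasFDerivAt (fun p : E d × E d => V s (p.1 + p.2))
      ((tau s • T).comp (ContinuousLinearMap.fst ℝ (E d) (E d) + ContinuousLinearMap.snd ℝ (E d) (E d)))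
      (e, e) := by
    have h2 := V_hasFDerivAt_two s he
    rw [two_smul] at h2
    exact HasFDerivAt.comp (e, e) (g := V s) (f := fun p : E d × E d => p.1 + p.2) h2
      (hasFDerivAt_fst.add hasFDerivAt_snd)
  have hder := (hV2.sub hV1).prodMk ((((((hasFDerivAt_fst (𝕜 := ℝ) (p := (e, e))).sub
    (hasFDerivAt_const e (e, e))).const_smul (8 : ℝ)).sub (hV1.const_smul (1 + tau s))).sub
      hV3).add (hV2.const_smul (tau s)) |>.add (hasFDerivAt_const ((1 + 2 * tau s) • e) (e, e)))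
  -- the equivalence
  let F1 : (E d × E d) →L[ℝ] (E d × E d) :=
    ((TE : E d →L[ℝ] E d).comp (ContinuousLinearMap.snd ℝ _ _ - ContinuousLinearMap.fst ℝ _ _)).prod
      ((SE : E d →L[ℝ] E d).comp (ContinuousLinearMap.fst ℝ _ _))
  let F2 : (E d × E d) →L[ℝ] (E d × E d) :=
    ((SE.symm : E d →L[ℝ] E d).comp (ContinuousLinearMap.snd ℝ _ _)).prod
      ((SE.symm : E d →L[ℝ] E d).comp (ContinuousLinearMap.snd ℝ _ _) +
        (TE.symm : E d →L[ℝ] E d).comp (ContinuousLinearMap.fst ℝ _ _))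
  have hl : Function.LeftInverse F2 F1 := by
    rintro ⟨a, b⟩
    simp [F1, F2]
  have hr : Function.RightInverse F2 F1 := by
    rintro ⟨a, b⟩
    simp [F1, F2]
  let f' : (E d × E d) ≃L[ℝ] (E d × E d) := ContinuousLinearEquiv.equivOfInverse F1 F2 hl hr
  have hf' : HasFDerivAt (Psi s e) (f' : (E d × E d) →L[ℝ] (E d × E d)) (e, e) := by
    refine hder.congr_fderiv ?_
    symm
    refine ContinuousLinearMap.ext fun p => ?_
    have h1 : (f' : (E d × E d) →L[ℝ] (E d × E d)) p = (TE (p.2 - p.1), SE p.1) := rfl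
    rw [h1]
    have hT : ∀ h : E d, TE h = T h := fun h => by
      rw [← ContinuousLinearEquiv.coe_coe, hTE]
    have hS : ∀ h : E d, SE h = (8 : ℝ) • h - (1 + 2 * tau s) • T h := fun h => by
      rw [← ContinuousLinearEquiv.coe_coe, hSE]
      simp only [T, rkL_apply]
      module
    rw [hT, hS]
    refine Prod.ext ?_ ?_
    · simp
    · simp
      module
  obtain ⟨P, hP1, hP2, hP3, hP4⟩ := ift (Psi s e) O hO (e, e) heO hsm f' hf'
  refine ⟨P, hP1, hP3, hP4, f'.symm, ?_, ?_⟩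
  · refine P.hasFDerivAt_symm (P.map_source hP1) ?_
    rw [P.left_inv hP1]
    have : (P : E d × E d → E d × E d) = Psi s e := funext hP3
    rw [this]
    exact hf'
  · intro ξ
    have h1 : (f'.symm : (E d × E d) →L[ℝ] (E d × E d)) (ξ, 0) =
      (SE.symm 0, SE.symm 0 + TE.symm ξ) := rfl
    rw [h1, map_zero, zero_add]
    have h2 : TE.symm ξ = rkL e (1 / 1) (-(-(s + 2)) / (1 * (1 + -(s + 2)))) ξ := by
      rw [← hTE', ContinuousLinearEquiv.coe_coe]
    rw [h2]
    have h3 : (1 : ℝ) / 1 = 1 := by norm_num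
    have h4 : -(-(s + 2)) / (1 * (1 + -(s + 2))) = -((s + 2) / (s + 1)) := by
      have : s + 1 ≠ 0 := by linarith
      have h5 : 1 * (1 + -(s + 2)) = -(s + 1) := by ring
      rw [h5, neg_neg, div_neg]
    rw [h3, h4]

theorem exists_sol {s : ℝ} (hs : 0 < s) {e : E d} (he : ‖e‖ = 1) :
    ∃ (U : Set (E d)) (w w' : E d → E d), IsOpen U ∧ (0 : E d) ∈ U ∧
      ContDiffOn ℝ ∞ w U ∧ ContDiffOn ℝ ∞ w' U ∧ w 0 = e ∧ w' 0 = e ∧
      HasFDerivAt w (0 : E d →L[ℝ] E d) 0 ∧
      HasFDerivAt w' (rkL e (kap s) (-(kap s * (s + 2) / (s + 1)))) 0 ∧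
      (∀ x ∈ U, V s (w' x) - V s (w x) = kap s • x) ∧
      (∀ x ∈ U, V s (w x) + V s (w x + w' x) =
        (1 + 2 * tau s) • e + (8 : ℝ) • (x + w x - e)) := by
  obtain ⟨P, hP1, hP3, hP4, D, hD, hD2⟩ := sol_exists_psi hs he
  have hPe : P (e, e) = (0, 0) := by
    rw [hP3]
    unfold Psi
    simp only [V_of_norm_one s he]
    rw [← two_smul ℝ e, V_two_smul s he]
    refine Prod.ext (by simp) ?_
    simp only
    module
  let ι : E d →L[ℝ] E d × E d :=
    (kap s • ContinuousLinearMap.id ℝ (E d)).prod (0 : E d →L[ℝ] E d)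
  have hι : ∀ x, ι x = (kap s • x, 0) := fun x => rfl
  let φ : E d → E d × E d := fun x => P.symm (ι x)
  have hφ : ∀ x, φ x = P.symm (ι x) := fun x => rfl
  have hι0 : ι 0 = P (e, e) := by rw [hPe, map_zero]; rfl
  have hφ0 : φ 0 = (e, e) := by rw [hφ, hι0, P.left_inv hP1]
  have hdφ : HasFDerivAt φ (D.comp ι) 0 := by
    refine HasFDerivAt.comp 0 (g := P.symm) (f := ι) ?_ ι.hasFDerivAt
    rw [hι0]; exact hD
  have hsmφ : ContDiffOn ℝ ∞ φ (ι ⁻¹' P.target) :=
    hP4.comp ι.contDiff.contDiffOn (fun x hx => hx)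
  have hval : ∀ x ∈ ι ⁻¹' P.target, Psi s e (φ x) = (kap s • x, 0) := by
    intro x hx
    rw [← hP3, hφ, P.right_inv hx, hι]
  refine ⟨ι ⁻¹' P.target, fun x => (φ x).1, fun x => (φ x).2, P.open_target.preimage ι.continuous,
    ?_, ?_, ?_, ?_, ?_, ?_, ?_, ?_, ?_⟩
  · show ι 0 ∈ P.target
    rw [hι0]; exact P.map_source hP1
  · exact contDiff_fst.comp_contDiffOn hsmφ
  · exact contDiff_snd.comp_contDiffOn hsmφ
  · show (φ 0).1 = e
    rw [hφ0]
  · show (φ 0).2 = e
    rw [hφ0]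
  · have h1 : HasFDerivAt (fun x => (φ x).1)
        ((ContinuousLinearMap.fst ℝ (E d) (E d)).comp (D.comp ι)) 0 := hdφ.fst
    convert h1 using 1
    refine ContinuousLinearMap.ext fun x => ?_
    have : (D.comp ι) x = D (kap s • x, 0) := rfl
    simp only [ContinuousLinearMap.comp_apply, hι, hD2]
    simp
  · have h1 : HasFDerivAt (fun x => (φ x).2)
        ((ContinuousLinearMap.snd ℝ (E d) (E d)).comp (D.comp ι)) 0 := hdφ.snd
    convert h1 using 1
    refine ContinuousLinearMap.ext fun x => ?_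
    simp only [ContinuousLinearMap.comp_apply, hι, hD2]
    simp only [ContinuousLinearMap.coe_snd', rkL_apply, inner_smul_right]
    module
  · intro x hx
    have h1 := congrArg Prod.fst (hval x hx)
    exact h1
  · intro x hx
    have h1 := congrArg Prod.fst (hval x hx)
    have h2 := congrArg Prod.snd (hval x hx)
    simp only [Psi] at h1 h2
    have h3 : (8 : ℝ) • x = tau s • (V s (φ x).2 - V s (φ x).1) := by
      rw [h1, smul_smul, mul_comm (tau s), kap_mul_tau]
    have h4 : V s (φ x).1 + V s ((φ x).1 + (φ x).2) -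
        ((1 + 2 * tau s) • e + (8 : ℝ) • (x + (φ x).1 - e)) =
        -((8 : ℝ) • ((φ x).1 - e) - (1 + tau s) • V s (φ x).1 - V s ((φ x).1 + (φ x).2) +
          tau s • V s (φ x).2 + (1 + 2 * tau s) • e) +
        (tau s • (V s (φ x).2 - V s (φ x).1) - (8 : ℝ) • x) := by
      module
    rw [h2, h3] at h4
    exact sub_eq_zero.mp (by rw [h4]; simp)

end Crest.Agent.R130
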