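import Crest.Agent.R130.Defs

/-!
# Row 130, piece VF: the vector field `V s w = ‖w‖^(-s-2) • w`, rank one perturbations of the identity
-/

set_option autoImplicit false
open Metric Set
open scoped ContDiff

namespace Crest.Agent.R130

variable {d : ℕ}

theorem V_neg (s : ℝ) (w : E d) : V s (-w) = - V s w := by
  simp [V]

theorem V_of_norm_one (s : ℝ) {e : E d} (he : ‖e‖ = 1) : V s e = e := by
  simp [V, he]

theorem V_two_smul (s : ℝ) {e : E d} (he : ‖e‖ = 1) : V s ((2 : ℝ) • e) = (2 * tau s) • e := by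
  have h2 : ‖(2 : ℝ) • e‖ = 2 := by
    rw [norm_smul, he]; norm_num
  rw [V, h2, smul_smul, tau, mul_comm]

theorem V_contDiffAt (s : ℝ) {w : E d} (hw : w ≠ 0) : ContDiffAt ℝ ∞ (V s) w := by
  have h1 : ContDiffAt ℝ ∞ (fun w : E d => ‖w‖) w := contDiffAt_norm ℝ hw
  have h2 : ContDiffAt ℝ ∞ (fun w : E d => ‖w‖ ^ (-s - 2)) w :=
    h1.rpow_const_of_ne (norm_ne_zero_iff.2 hw)
  exact h2.smul contDiffAt_id

/-- `h ↦ α h + β ⟪e, h⟫ e` -/
noncomputable def rkL (e : E d) (α β : ℝ) : E d →L[ℝ] E d :=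
  α • ContinuousLinearMap.id ℝ (E d) + β • (innerSL ℝ e).smulRight e

theorem rkL_apply (e : E d) (α β : ℝ) (h : E d) :
    rkL e α β h = α • h + (β * inner ℝ e h) • e := by
  simp [rkL, smul_smul]

theorem rkL_comp {e : E d} (he : ‖e‖ = 1) (α β α' β' : ℝ) (h : E d) :
    rkL e α β (rkL e α' β' h) = rkL e (α * α') (α * β' + β * α' + β * β') h := by
  have hee : inner ℝ e e = (1 : ℝ) := by
    rw [real_inner_self_eq_norm_sq, he]; norm_num
  simp only [rkL_apply, inner_add_right, inner_smul_right, hee]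
  module

/-- invertibility; the inverse is again of the same form -/
theorem exists_rk_equiv {e : E d} (he : ‖e‖ = 1) {α β : ℝ} (hα : α ≠ 0) (hαβ : α + β ≠ 0) :
    ∃ A : E d ≃L[ℝ] E d, (A : E d →L[ℝ] E d) = rkL e α β ∧
      (A.symm : E d →L[ℝ] E d) = rkL e (1 / α) (-β / (α * (α + β))) := by
  have h1 : Function.LeftInverse (rkL e (1 / α) (-β / (α * (α + β)))) (rkL e α β) := by
    intro h
    rw [rkL_comp he, rkL_apply]
    have e1 : 1 / α * α = 1 := by field_simp
    have e2 : 1 / α * β + -β / (α * (α + β)) * α + -β / (α * (α + β)) * β = 0 := by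
      field_simp; ring
    rw [e1, e2]; simp
  have h2 : Function.RightInverse (rkL e (1 / α) (-β / (α * (α + β)))) (rkL e α β) := by
    intro h
    rw [rkL_comp he, rkL_apply]
    have e1 : α * (1 / α) = 1 := by field_simp
    have e2 : α * (-β / (α * (α + β))) + β * (1 / α) + β * (-β / (α * (α + β))) = 0 := by
      field_simp; ring
    rw [e1, e2]; simp
  refine ⟨ContinuousLinearEquiv.equivOfInverse _ _ h1 h2, ?_, ?_⟩
  · ext1 x; rfl
  · ext1 x; rfl

theorem V_hasFDerivAt_aux (s : ℝ) {e : E d} (he : ‖e‖ = 1) {c : ℝ} (hc : 0 < c) :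
    HasFDerivAt (V s) (c ^ (-s - 2) • rkL e 1 (-(s + 2))) (c • e) := by
  have hce : ‖c • e‖ = c := by rw [norm_smul, he, mul_one]; simp [abs_of_pos hc]
  have h0 : HasFDerivAt (fun w : E d => ‖w‖ ^ 2) (2 • innerSL ℝ (c • e)) (c • e) :=
    (hasStrictFDerivAt_norm_sq (c • e)).hasFDerivAt
  have hne : ‖c • e‖ ^ 2 ≠ 0 := by rw [hce]; positivity
  have h1 := h0.rpow_const (p := (-s - 2) / 2) (Or.inl hne)
  have h2 := h1.smul (hasFDerivAt_id (c • e))
  have hV : (fun w : E d => (‖w‖ ^ 2) ^ ((-s - 2) / 2) • w) = V s := by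
    funext w
    rw [V]
    congr 1
    rw [← Real.rpow_natCast, ← Real.rpow_mul (norm_nonneg _)]
    congr 1
    push_cast; ring
  have h3 : HasFDerivAt (fun w : E d => (‖w‖ ^ 2) ^ ((-s - 2) / 2) • w) _ (c • e) := h2
  rw [hV] at h3
  refine h3.congr_fderiv ?_
  ext1 h
  simp only [ContinuousLinearMap.add_apply, ContinuousLinearMap.smul_apply,
    ContinuousLinearMap.smulRight_apply, ContinuousLinearMap.id_apply, rkL_apply, hce,
    innerSL_apply_apply, inner_smul_left, id]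
  have e1 : (c ^ 2) ^ ((-s - 2) / 2) = c ^ (-s - 2) := by
    rw [← Real.rpow_natCast, ← Real.rpow_mul hc.le]
    congr 1
    push_cast; ring
  have e2 : (c ^ 2) ^ ((-s - 2) / 2 - 1) = c ^ (-s - 2) / c ^ 2 := by
    rw [Real.rpow_sub (by positivity), Real.rpow_one, e1]
  rw [e1, e2]
  simp only [smul_add, smul_smul, smul_eq_mul, nsmul_eq_mul, one_smul]
  congr 1
  congr 1
  simp
  field_simp
  ring

theorem V_hasFDerivAt (s : ℝ) {e : E d} (he : ‖e‖ = 1) :
    HasFDerivAt (V s) (rkL e 1 (-(s + 2))) e := by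
  have h := V_hasFDerivAt_aux s he (c := 1) one_pos
  simpa using h

theorem V_hasFDerivAt_two (s : ℝ) {e : E d} (he : ‖e‖ = 1) :
    HasFDerivAt (V s) (tau s • rkL e 1 (-(s + 2))) ((2 : ℝ) • e) := by
  exact V_hasFDerivAt_aux s he (c := 2) two_pos

end Crest.Agent.R130
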